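import Vale.Agent.P075.Res

/-!
# P075: the block (refinement) inequality for the potential
-/

namespace P075

open Matrix

section tangent

variable {n : Type} [Fintype n] [DecidableEq n]

/-- tangent inequality for `Tr N⁻¹`, `N = 1 + Y` -/
theorem tangent {Y K : Matrix n n ℝ} (hY : Y.PosSemidef) (hK : Kᵀ = K) :
    2 * K.trace - (K * (1 + Y) * K).trace ≤ (res Y).trace := by
  have h := ps_congr (Matrix.PosDef.posSemidef (pd_one_add hY)) (res Y - K)
  have h1 := res_mul hY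
  have h1' := mul_res hY
  have e : (res Y - K) * (1 + Y) * (res Y - K)ᵀ = res Y - K - K + K * (1 + Y) * K := by
    rw [Matrix.transpose_sub, res_symm hY, hK, Matrix.sub_mul, h1, Matrix.mul_sub,
      Matrix.sub_mul, Matrix.sub_mul, Matrix.one_mul, Matrix.one_mul, Matrix.mul_assoc K, h1',
      Matrix.mul_one]
    abel
  rw [e] at h
  have := h.trace_nonneg
  rw [Matrix.trace_add, Matrix.trace_sub, Matrix.trace_sub] at this
  linarith

/-- convexity of `Tr (1+Y)⁻¹` -/
theorem convex_res {Y1 Y2 : Matrix n n ℝ} (h1 : Y1.PosSemidef) (h2 : Y2.PosSemidef) :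
    2 * (res ((2 : ℝ) • (Y1 + Y2))).trace
      ≤ (res ((4 : ℝ) • Y1)).trace + (res ((4 : ℝ) • Y2)).trace := by
  have hs : ((2 : ℝ) • (Y1 + Y2)).PosSemidef := (h1.add h2).smul (by norm_num)
  have hs1 : ((4 : ℝ) • Y1).PosSemidef := h1.smul (by norm_num)
  have hs2 : ((4 : ℝ) • Y2).PosSemidef := h2.smul (by norm_num)
  set K := res ((2 : ℝ) • (Y1 + Y2)) with hKdef
  have hK : Kᵀ = K := res_symm hs
  have t1 := tangent hs1 hK
  have t2 := tangent hs2 hK
  have e : (K * (1 + (4 : ℝ) • Y1) * K).trace + (K * (1 + (4 : ℝ) • Y2) * K).trace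
      = 2 * K.trace := by
    have : K * (1 + (4 : ℝ) • Y1) * K + K * (1 + (4 : ℝ) • Y2) * K
        = (2 : ℝ) • (K * (1 + (2 : ℝ) • (Y1 + Y2)) * K) := by
      rw [← Matrix.add_mul, ← Matrix.mul_add]
      have e2 : (1 + (4 : ℝ) • Y1 + (1 + (4 : ℝ) • Y2))
          = (2 : ℝ) • (1 + (2 : ℝ) • (Y1 + Y2)) := by
        module
      rw [e2, Matrix.mul_smul, Matrix.smul_mul]
    rw [← Matrix.trace_add, this, Matrix.trace_smul, hKdef, res_mul hs, Matrix.one_mul,
      smul_eq_mul]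
  linarith

/-- `phi` is nonnegative. -/
theorem phi_nonneg {Y : Matrix n n ℝ} (hY : Y.PosSemidef) : 0 ≤ phi Y := by
  have h := tangent hY (K := 1) Matrix.transpose_one
  rw [Matrix.one_mul, Matrix.mul_one, Matrix.trace_add, Matrix.trace_one] at h
  unfold phi
  unfold res at h
  linarith

omit [DecidableEq n] in
theorem XX_ps (F G : Matrix n n ℝ) : (XX F G).PosSemidef := (ps_self F).add (ps_self' G)

omit [DecidableEq n] in
theorem XX_smul (c : ℝ) (F G : Matrix n n ℝ) : XX (c • F) (c • G) = (c ^ 2) • XX F G := by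
  simp only [XX, Matrix.transpose_smul, Matrix.smul_mul, Matrix.mul_smul, smul_smul, smul_add, sq]

theorem Psi_nonneg (F : Fin 3 → Matrix n n ℝ) : 0 ≤ Psi F := by
  unfold Psi
  have h0 := phi_nonneg (XX_ps (F 0) (F 2))
  have h1 := phi_nonneg (XX_ps (F 1) (F 0))
  have h2 := phi_nonneg (XX_ps (F 2) (F 1))
  linarith

end tangent

theorem WW_nonneg (ι : Type) [Fintype ι] [DecidableEq ι] (J : ℕ) (F : Fin 3 → Matrix ι ι ℝ) :
    0 ≤ WW J F := by
  unfold WW
  refine Finset.sum_nonneg fun j _ => mul_nonneg ?_ (Psi_nonneg _)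
  positivity

section block

variable {ι : Type} [Fintype ι] [DecidableEq ι]

/-- the sign matrix -/
def JJ : Matrix (ι ⊕ ι) (ι ⊕ ι) ℝ := fromBlocks 1 0 0 (-1)

omit [Fintype ι] in
theorem JJ_symm : (JJ : Matrix (ι ⊕ ι) (ι ⊕ ι) ℝ)ᵀ = JJ := by
  simp [JJ, Matrix.fromBlocks_transpose]

theorem JJ_mul : (JJ : Matrix (ι ⊕ ι) (ι ⊕ ι) ℝ) * JJ = 1 := by
  simp [JJ, Matrix.fromBlocks_multiply]

theorem JJ_conj (A B C D : Matrix ι ι ℝ) :
    fromBlocks A B C D + JJ * fromBlocks A B C D * JJ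
      = fromBlocks ((2 : ℝ) • A) 0 0 ((2 : ℝ) • D) := by
  simp only [JJ, Matrix.fromBlocks_multiply, Matrix.fromBlocks_add]
  congr 1 <;> simp [two_smul]

theorem res_blockdiag {A D : Matrix ι ι ℝ} (hA : A.PosSemidef) (hD : D.PosSemidef)
    (hX : (fromBlocks A 0 0 D).PosSemidef) :
    res (fromBlocks A 0 0 D) = fromBlocks (res A) 0 0 (res D) := by
  symm
  refine eq_res_of_mul hX ?_
  rw [← Matrix.fromBlocks_one, Matrix.fromBlocks_add, Matrix.fromBlocks_multiply]
  congr 1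
  · simp [res_mul hA]
  · simp
  · simp
  · simp [res_mul hD]

omit [DecidableEq ι] in
theorem trace_blocks (A B C D : Matrix ι ι ℝ) :
    (fromBlocks A B C D).trace = A.trace + D.trace := by
  simp [Matrix.trace, Fintype.sum_sum_type]

/-- The refinement inequality at one vertex. -/
theorem refine_ineq {Y1 Y2 Y3 Y4 B C : Matrix ι ι ℝ}
    (h1 : Y1.PosSemidef) (h2 : Y2.PosSemidef) (h3 : Y3.PosSemidef) (h4 : Y4.PosSemidef)
    (hX : (fromBlocks (Y1 + Y2) B C (Y3 + Y4)).PosSemidef) :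
    phi (fromBlocks (Y1 + Y2) B C (Y3 + Y4)) + gain JJ (fromBlocks (Y1 + Y2) B C (Y3 + Y4))
      ≤ (phi ((4 : ℝ) • Y1) + phi ((4 : ℝ) • Y2) + phi ((4 : ℝ) • Y3) + phi ((4 : ℝ) • Y4)) / 4 := by
  have hg := gain_lemma JJ_symm JJ_mul hX
  have c12 := convex_res h1 h2
  have c34 := convex_res h3 h4
  rw [JJ_conj, res_blockdiag ((h1.add h2).smul (by norm_num)) ((h3.add h4).smul (by norm_num))] at hg
  · rw [trace_blocks, Fintype.card_sum] at hg
    push_cast at hg
    unfold phi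
    change _ + (res _).trace + _ ≤ (_ + (res _).trace + (_ + (res _).trace)
      + (_ + (res _).trace) + (_ + (res _).trace)) / 4
    rw [trace_blocks, Fintype.card_sum]
    simp only [Matrix.trace_smul, Matrix.trace_add, smul_eq_mul]
    push_cast
    linarith
  · have := hX.add (conj_ps JJ_symm hX)
    rwa [JJ_conj] at this

end block

end P075
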