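import Vale.Agent.P075.Tri

/-!
# P075: the one-step (core) inequality
-/

namespace P075

open Matrix Filter

section diff

variable {n : Type} [Fintype n] [DecidableEq n]

/-- the two-scale comparison of the trilinear expression -/
theorem tri_diff {J X0 X1 X2 F0 F1 F2 : Matrix n n ℝ}
    (hJ : Jᵀ = J) (hJJ : J * J = 1)
    (h0 : X0.PosSemidef) (h1 : X1.PosSemidef) (h2 : X2.PosSemidef)
    (a0 : (X0 - F0 * F0ᵀ).PosSemidef) (b0 : (X0 - F2ᵀ * F2).PosSemidef)
    (a1 : (X1 - F1 * F1ᵀ).PosSemidef) (b1 : (X1 - F0ᵀ * F0).PosSemidef)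
    (a2 : (X2 - F2 * F2ᵀ).PosSemidef) (b2 : (X2 - F1ᵀ * F1).PosSemidef) :
    |Tri (res X0 * J * res X0) (res X1 * J * res X1) (res X2 * J * res X2) F0 F1 F2
      - Tri (res ((4 : ℝ) • X0) * J * res ((4 : ℝ) • X0)) (res ((4 : ℝ) • X1) * J * res ((4 : ℝ) • X1))
          (res ((4 : ℝ) • X2) * J * res ((4 : ℝ) • X2)) F0 F1 F2|
      ≤ 6 * (gain J X0 + gain J X1 + gain J X2
          + gain J ((4 : ℝ) • X0) + gain J ((4 : ℝ) • X1) + gain J ((4 : ℝ) • X2)) := by
  have lc1 := lc_sandwich hJ hJJ h1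
  have lc2 := lc_sandwich hJ hJJ h2
  have lc2t : LC (res X2 * J * res X2)ᵀ := by rw [sandwich_symm hJ h2]; exact lc2
  have lc0' := lc_sandwich hJ hJJ (ps4 h0)
  have lc0t : LC (res ((4 : ℝ) • X0) * J * res ((4 : ℝ) • X0))ᵀ := by
    rw [sandwich_symm hJ (ps4 h0)]; exact lc0'
  have lc1' := lc_sandwich hJ hJJ (ps4 h1)
  have lc1t : LC (res ((4 : ℝ) • X1) * J * res ((4 : ℝ) • X1))ᵀ := by
    rw [sandwich_symm hJ (ps4 h1)]; exact lc1'
  have s1 := step_tri (Fb := F1) hJ h0 a0 b0 lc1 lc2t (bound3 hJ h2 b2 a2) (bound3 hJ h1 b1 a1)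
  have s2 := step_tri (Fb := F2) hJ h1 a1 b1 lc2 lc0t (bound3' hJ h0 b0 a0) (bound3 hJ h2 b2 a2)
  have s3 := step_tri (Fb := F0) hJ h2 a2 b2 lc0' lc1t (bound3' hJ h1 b1 a1) (bound3' hJ h0 b0 a0)
  have g0 := gain_nonneg hJ h0
  have g1 := gain_nonneg hJ h1
  have g2 := gain_nonneg hJ h2
  have g0' := gain_nonneg hJ (ps4 h0)
  have g1' := gain_nonneg hJ (ps4 h1)
  have g2' := gain_nonneg hJ (ps4 h2)
  clear lc1 lc2 lc2t lc0' lc0t lc1' lc1t
  generalize res X0 * J * res X0 = K0 at *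
  generalize res X1 * J * res X1 = K1 at *
  generalize res X2 * J * res X2 = K2 at *
  generalize res ((4 : ℝ) • X0) * J * res ((4 : ℝ) • X0) = L0 at *
  generalize res ((4 : ℝ) • X1) * J * res ((4 : ℝ) • X1) = L1 at *
  generalize res ((4 : ℝ) • X2) * J * res ((4 : ℝ) • X2) = L2 at *
  rw [← Tri_rot L0 K1 K2 F0 F1 F2, ← Tri_rot L0 L1 K2 F0 F1 F2] at s2
  rw [← Tri_rot L1 K2 L0 F1 F2 F0, ← Tri_rot L0 L1 K2 F0 F1 F2,
    ← Tri_rot L1 L2 L0 F1 F2 F0, ← Tri_rot L0 L1 L2 F0 F1 F2] at s3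
  rw [abs_le] at *
  constructor <;> linarith [s1.1, s1.2, s2.1, s2.2, s3.1, s3.2]

omit [DecidableEq n] in
theorem Tri_smul (c : ℝ) (K0 K1 K2 F0 F1 F2 : Matrix n n ℝ) :
    Tri K0 K1 K2 (c • F0) (c • F1) (c • F2) = c ^ 3 * Tri K0 K1 K2 F0 F1 F2 := by
  unfold Tri
  simp only [Matrix.mul_smul, Matrix.smul_mul, Matrix.trace_smul, smul_eq_mul]
  ring

theorem one_sub_PP_ps {X : Matrix n n ℝ} (hX : X.PosSemidef) :
    (1 - res X * (1 - res X)).PosSemidef := by
  have e : 1 - res X * (1 - res X) = (1 - res X) + res X * (res X)ᵀ := by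
    rw [res_symm hX, Matrix.mul_sub, Matrix.mul_one]; abel
  rw [e]
  exact (one_sub_res_ps hX).add (ps_self _)

theorem lc_PF {X F : Matrix n n ℝ} (hX : X.PosSemidef) (hF : (X - F * Fᵀ).PosSemidef) :
    LC (res X * F)ᵀ := by
  refine lc_of_ps ?_
  have e : 1 - (res X * F)ᵀᵀ * (res X * F)ᵀ
      = (1 - res X * (1 - res X)) + res X * (X - F * Fᵀ) * (res X)ᵀ := by
    rw [Matrix.transpose_transpose, Matrix.transpose_mul, res_symm hX, ← X_mul_res hX,
      Matrix.mul_sub, Matrix.sub_mul]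
    simp only [Matrix.mul_assoc]
    abel
  rw [e]
  exact (one_sub_PP_ps hX).add (ps_congr hF _)

theorem hs_one : hs (1 : Matrix n n ℝ) = Fintype.card n := by
  simp [hs]

theorem hs_chain {J X F : Matrix n n ℝ} (hJ : Jᵀ = J) (hJJ : J * J = 1)
    (hX : X.PosSemidef) (hF : (X - F * Fᵀ).PosSemidef) (N : Matrix n n ℝ) :
    hs (N * res X * J * (res X * F)) ≤ hs N := by
  have hJc : LC Jᵀ := by rw [hJ]; exact lc_J hJ hJJ
  have p : LC (res X)ᵀ := by rw [res_symm hX]; exact lc_res hX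
  have h1 := hs_mul_le (lc_PF hX hF) (N * res X * J)
  have h2 := hs_mul_le hJc (N * res X)
  have h3 := hs_mul_le p N
  exact h1.trans (h2.trans h3)

/-- crude bound for the trilinear expression -/
theorem tri_crude {J X0 X1 X2 F0 F1 F2 : Matrix n n ℝ}
    (hJ : Jᵀ = J) (hJJ : J * J = 1)
    (h0 : X0.PosSemidef) (h1 : X1.PosSemidef) (h2 : X2.PosSemidef)
    (a0 : (X0 - F0 * F0ᵀ).PosSemidef) (a1 : (X1 - F1 * F1ᵀ).PosSemidef)
    (a2 : (X2 - F2 * F2ᵀ).PosSemidef) :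
    |Tri (res X0 * J * res X0) (res X1 * J * res X1) (res X2 * J * res X2) F0 F1 F2|
      ≤ Fintype.card n := by
  have c0 := hs_chain hJ hJJ h0 a0 1
  have c1 := hs_chain hJ hJJ h1 a1 (1 * res X0 * J * (res X0 * F0))
  have c2 := hs_chain hJ hJJ h2 a2
    (1 * res X0 * J * (res X0 * F0) * res X1 * J * (res X1 * F1))
  have hb := c2.trans (c1.trans c0)
  have e : Tri (res X0 * J * res X0) (res X1 * J * res X1) (res X2 * J * res X2) F0 F1 F2
      = (1 * (1 * res X0 * J * (res X0 * F0) * res X1 * J * (res X1 * F1) * res X2 * J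
          * (res X2 * F2))).trace := by
    unfold Tri
    simp only [Matrix.mul_assoc, Matrix.one_mul]
  have h := abs_trace_mul_le 1 (1 * res X0 * J * (res X0 * F0) * res X1 * J * (res X1 * F1)
    * res X2 * J * (res X2 * F2))
  rw [← e] at h
  rw [hs_one] at hb h
  linarith

theorem continuousAt_res (X : Matrix n n ℝ) : ContinuousAt (fun t : ℝ => res (t • X)) 0 := by
  have h1 : Continuous fun t : ℝ => (1 + t • X : Matrix n n ℝ) :=
    continuous_const.add (continuous_id.smul continuous_const)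
  have h2 : Continuous fun t : ℝ => (1 + t • X : Matrix n n ℝ).det := h1.matrix_det
  have h3 : Continuous fun t : ℝ => (1 + t • X : Matrix n n ℝ).adjugate := h1.matrix_adjugate
  have e : (fun t : ℝ => res (t • X))
      = fun t : ℝ => ((1 + t • X : Matrix n n ℝ).det)⁻¹ • (1 + t • X : Matrix n n ℝ).adjugate := by
    funext t
    rw [res, Matrix.inv_def, Ring.inverse_eq_inv']
  rw [e]
  refine ContinuousAt.smul (h2.continuousAt.inv₀ ?_) h3.continuousAt
  simp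

theorem tendsto_res (X : Matrix n n ℝ) :
    Tendsto (fun J : ℕ => res (((4 : ℝ) ^ (-(J : ℤ))) • X)) atTop (nhds 1) := by
  have h := (continuousAt_res X).tendsto
  have e : res ((0 : ℝ) • X) = 1 := by simp [res]
  rw [e] at h
  refine h.comp ?_
  have : (fun J : ℕ => (4 : ℝ) ^ (-(J : ℤ))) = fun J : ℕ => (1 / 4 : ℝ) ^ J := by
    funext J
    rw [_root_.zpow_neg, zpow_natCast, one_div, inv_pow]
  rw [this]
  exact tendsto_pow_atTop_nhds_zero_of_lt_one (by norm_num) (by norm_num)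

end diff

end P075
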