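import Vale.Agent.P075.CoreFin

/-!
# P075: the core inequality `CoreBound 54`
-/

namespace P075

open Matrix Filter

section

variable {ι : Type} [Fintype ι] [DecidableEq ι]

omit [DecidableEq ι] in
theorem XX_blocks (A B C D A' B' C' D' : Matrix ι ι ℝ) :
    ∃ U V, XX (fromBlocks A B C D) (fromBlocks A' B' C' D')
      = fromBlocks (XX A A' + XX B C') U V (XX C D' + XX D B') := by
  refine ⟨A * Cᵀ + B * Dᵀ + (A'ᵀ * B' + C'ᵀ * D'), C * Aᵀ + D * Bᵀ + (B'ᵀ * A' + D'ᵀ * C'), ?_⟩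
  simp only [XX, Matrix.fromBlocks_transpose, Matrix.fromBlocks_multiply, Matrix.fromBlocks_add]
  congr 1
  · abel
  · abel

/-- refinement inequality for scaled `XX` -/
theorem refine_XX {c : ℝ} (hc : 0 ≤ c) (A B C D A' B' C' D' : Matrix ι ι ℝ) :
    phi (c • XX (fromBlocks A B C D) (fromBlocks A' B' C' D'))
      + gain JJ (c • XX (fromBlocks A B C D) (fromBlocks A' B' C' D'))
      ≤ (phi ((4 * c) • XX A A') + phi ((4 * c) • XX B C') + phi ((4 * c) • XX C D')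
          + phi ((4 * c) • XX D B')) / 4 := by
  obtain ⟨U, V, h⟩ := XX_blocks A B C D A' B' C' D'
  have hps : (c • XX (fromBlocks A B C D) (fromBlocks A' B' C' D')).PosSemidef :=
    (XX_ps _ _).smul hc
  rw [h] at hps ⊢
  rw [Matrix.fromBlocks_smul, smul_add, smul_add] at hps ⊢
  have := refine_ineq ((XX_ps A A').smul hc) ((XX_ps B C').smul hc) ((XX_ps C D').smul hc)
    ((XX_ps D B').smul hc) hps
  simpa only [smul_smul] using this

omit [DecidableEq ι] in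
theorem XX_two (j : ℤ) (F G : Matrix ι ι ℝ) :
    (4 : ℝ) ^ j • XX ((2 : ℝ) • F) ((2 : ℝ) • G) = (4 * (4 : ℝ) ^ j) • XX F G := by
  rw [XX_smul, smul_smul]
  congr 1
  ring

omit [DecidableEq ι] in
theorem XX_one (j : ℤ) (F G : Matrix ι ι ℝ) :
    XX ((2 : ℝ) ^ j • F) ((2 : ℝ) ^ j • G) = ((4 : ℝ) ^ j) • XX F G := by
  rw [XX_smul, four_zpow, sq]

/-- the potential inequality at scale `j` -/
theorem Psi_step (A B C D : Fin 3 → Matrix ι ι ℝ) (j : ℤ) :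
    Psi (fun v => (2 : ℝ) ^ j • (fun v => fromBlocks (A v) (B v) (C v) (D v)) v)
      + gs JJ (fromBlocks (A 0) (B 0) (C 0) (D 0)) (fromBlocks (A 1) (B 1) (C 1) (D 1))
          (fromBlocks (A 2) (B 2) (C 2) (D 2)) j
      ≤ (Psi (fun v => (2 : ℝ) ^ j • ![(2 : ℝ) • A 0, (2 : ℝ) • A 1, (2 : ℝ) • A 2] v)
          + Psi (fun v => (2 : ℝ) ^ j • ![(2 : ℝ) • B 0, (2 : ℝ) • D 1, (2 : ℝ) • C 2] v)
          + Psi (fun v => (2 : ℝ) ^ j • ![(2 : ℝ) • C 0, (2 : ℝ) • B 1, (2 : ℝ) • D 2] v)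
          + Psi (fun v => (2 : ℝ) ^ j • ![(2 : ℝ) • D 0, (2 : ℝ) • C 1, (2 : ℝ) • B 2] v)) / 4 := by
  have hc : (0 : ℝ) ≤ (4 : ℝ) ^ j := by positivity
  have r0 := refine_XX hc (A 0) (B 0) (C 0) (D 0) (A 2) (B 2) (C 2) (D 2)
  have r1 := refine_XX hc (A 1) (B 1) (C 1) (D 1) (A 0) (B 0) (C 0) (D 0)
  have r2 := refine_XX hc (A 2) (B 2) (C 2) (D 2) (A 1) (B 1) (C 1) (D 1)
  unfold Psi gs
  simp only [Matrix.cons_val_zero, Matrix.cons_val_one, Matrix.cons_val, XX_two, XX_one]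
  linarith

theorem WW_step (A B C D : Fin 3 → Matrix ι ι ℝ) (J : ℕ) :
    ∑ j ∈ Finset.Icc (-(J : ℤ)) (J : ℤ), (8 : ℝ) ^ (-j) *
      gs JJ (fromBlocks (A 0) (B 0) (C 0) (D 0)) (fromBlocks (A 1) (B 1) (C 1) (D 1))
          (fromBlocks (A 2) (B 2) (C 2) (D 2)) j
      ≤ (WW J ![(2 : ℝ) • A 0, (2 : ℝ) • A 1, (2 : ℝ) • A 2]
          + WW J ![(2 : ℝ) • B 0, (2 : ℝ) • D 1, (2 : ℝ) • C 2]
          + WW J ![(2 : ℝ) • C 0, (2 : ℝ) • B 1, (2 : ℝ) • D 2]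
          + WW J ![(2 : ℝ) • D 0, (2 : ℝ) • C 1, (2 : ℝ) • B 2]) / 4
          - WW J (fun v => fromBlocks (A v) (B v) (C v) (D v)) := by
  unfold WW
  rw [← Finset.sum_add_distrib, ← Finset.sum_add_distrib, ← Finset.sum_add_distrib,
    Finset.sum_div, ← Finset.sum_sub_distrib]
  refine Finset.sum_le_sum fun j _ => ?_
  have h8 : (0 : ℝ) < (8 : ℝ) ^ (-j) := by positivity
  have h := mul_le_mul_of_nonneg_left (Psi_step A B C D j) h8.le
  rw [mul_add] at h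
  have e : ∀ a b c d : ℝ, (8 : ℝ) ^ (-j) * ((a + b + c + d) / 4)
      = ((8 : ℝ) ^ (-j) * a + (8 : ℝ) ^ (-j) * b + (8 : ℝ) ^ (-j) * c + (8 : ℝ) ^ (-j) * d) / 4 := by
    intro a b c d; ring
  rw [e] at h
  linarith

omit [Fintype ι] in
theorem JJ_diag : (JJ : Matrix (ι ⊕ ι) (ι ⊕ ι) ℝ) = Matrix.diagonal ss := by
  unfold JJ
  rw [← Matrix.diagonal_one, Matrix.diagonal_neg, Matrix.fromBlocks_diagonal]
  rfl

theorem Tri_JJ (G : Fin 3 → Matrix (ι ⊕ ι) (ι ⊕ ι) ℝ) :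
    Tri JJ JJ JJ (G 0) (G 1) (G 2) = Tsum G := by
  unfold Tri Tsum
  rw [JJ_diag]
  have e : (diagonal ss * G 0 * diagonal ss * G 1 * diagonal ss * G 2)
      = (diagonal ss * G 0) * ((diagonal ss * G 1) * (diagonal ss * G 2)) := by
    simp only [Matrix.mul_assoc]
  rw [e, Matrix.trace]
  refine Finset.sum_congr rfl fun i _ => ?_
  rw [Matrix.diag_apply, Matrix.mul_apply]
  refine Finset.sum_congr rfl fun j _ => ?_
  rw [Matrix.diagonal_mul, Matrix.mul_apply, Finset.mul_sum]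
  refine Finset.sum_congr rfl fun l _ => ?_
  rw [Matrix.diagonal_mul, Matrix.diagonal_mul]
  ring

end

theorem core_bound : CoreBound 54 := by
  intro ι _ _ A B C D
  set G : Fin 3 → Matrix (ι ⊕ ι) (ι ⊕ ι) ℝ := fun v => fromBlocks (A v) (B v) (C v) (D v) with hG
  refine ⟨fun N => TTj JJ (G 0) (G 1) (G 2) (-(N : ℤ)) - TTj JJ (G 0) (G 1) (G 2) N, ?_, ?_⟩
  · have h := (TTj_tendsto_left JJ (G 0) (G 1) (G 2)).sub
      (TTj_tendsto_right JJ_symm JJ_mul (G 0) (G 1) (G 2))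
    rw [sub_zero, Tri_JJ] at h
    exact h
  · intro J
    refine (TTj_total JJ_symm JJ_mul (G 0) (G 1) (G 2) J).trans ?_
    have h := WW_step A B C D J
    exact mul_le_mul_of_nonneg_left h (by norm_num)

end P075
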