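import Vale.Agent.P075.Core

/-!
# P075: assembly of the core inequality
-/

namespace P075

open Matrix Filter

section scale

variable {n : Type} [Fintype n] [DecidableEq n]

/-- the trilinear expression truncated at scale `j` -/
noncomputable def TTj (J G0 G1 G2 : Matrix n n ℝ) (j : ℤ) : ℝ :=
  Tri (res (((4 : ℝ) ^ j) • XX G0 G2) * J * res (((4 : ℝ) ^ j) • XX G0 G2))
    (res (((4 : ℝ) ^ j) • XX G1 G0) * J * res (((4 : ℝ) ^ j) • XX G1 G0))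
    (res (((4 : ℝ) ^ j) • XX G2 G1) * J * res (((4 : ℝ) ^ j) • XX G2 G1)) G0 G1 G2

/-- the sum of the three gains at scale `j` -/
noncomputable def gs (J G0 G1 G2 : Matrix n n ℝ) (j : ℤ) : ℝ :=
  gain J (((4 : ℝ) ^ j) • XX G0 G2) + gain J (((4 : ℝ) ^ j) • XX G1 G0)
    + gain J (((4 : ℝ) ^ j) • XX G2 G1)

omit [DecidableEq n] in
theorem ps_scaled (j : ℤ) (F G : Matrix n n ℝ) : (((4 : ℝ) ^ j) • XX F G).PosSemidef :=
  (XX_ps F G).smul (by positivity)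

theorem four_zpow (j : ℤ) : (4 : ℝ) ^ j = (2 : ℝ) ^ j * (2 : ℝ) ^ j := by
  rw [← mul_zpow]; norm_num

theorem eight_zpow (j : ℤ) : (8 : ℝ) ^ j = ((2 : ℝ) ^ j) ^ 3 := by
  rw [← zpow_natCast, ← _root_.zpow_mul, mul_comm, _root_.zpow_mul]; norm_num

omit [DecidableEq n] in
theorem sub_ps_left (j : ℤ) (F G : Matrix n n ℝ) :
    (((4 : ℝ) ^ j) • XX F G - ((2 : ℝ) ^ j • F) * ((2 : ℝ) ^ j • F)ᵀ).PosSemidef := by
  have e : ((4 : ℝ) ^ j) • XX F G - ((2 : ℝ) ^ j • F) * ((2 : ℝ) ^ j • F)ᵀ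
      = ((4 : ℝ) ^ j) • (Gᵀ * G) := by
    rw [Matrix.transpose_smul, Matrix.smul_mul, Matrix.mul_smul, smul_smul, four_zpow, XX,
      smul_add]
    abel
  rw [e]; exact (ps_self' G).smul (by positivity)

omit [DecidableEq n] in
theorem sub_ps_right (j : ℤ) (F G : Matrix n n ℝ) :
    (((4 : ℝ) ^ j) • XX F G - ((2 : ℝ) ^ j • G)ᵀ * ((2 : ℝ) ^ j • G)).PosSemidef := by
  have e : ((4 : ℝ) ^ j) • XX F G - ((2 : ℝ) ^ j • G)ᵀ * ((2 : ℝ) ^ j • G)
      = ((4 : ℝ) ^ j) • (F * Fᵀ) := by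
    rw [Matrix.transpose_smul, Matrix.smul_mul, Matrix.mul_smul, smul_smul, four_zpow, XX,
      smul_add]
    abel
  rw [e]; exact (ps_self F).smul (by positivity)

theorem gs_nonneg {J : Matrix n n ℝ} (hJ : Jᵀ = J) (G0 G1 G2 : Matrix n n ℝ) (j : ℤ) :
    0 ≤ gs J G0 G1 G2 j := by
  have h0 := gain_nonneg hJ (ps_scaled j G0 G2)
  have h1 := gain_nonneg hJ (ps_scaled j G1 G0)
  have h2 := gain_nonneg hJ (ps_scaled j G2 G1)
  unfold gs
  linarith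

omit [Fintype n] [DecidableEq n] in
theorem four_smul_zpow (j : ℤ) (X : Matrix n n ℝ) :
    (4 : ℝ) • (((4 : ℝ) ^ j) • X) = ((4 : ℝ) ^ (j + 1)) • X := by
  rw [smul_smul, zpow_add₀ (by norm_num), zpow_one, mul_comm]

theorem TTj_step {J : Matrix n n ℝ} (hJ : Jᵀ = J) (hJJ : J * J = 1) (G0 G1 G2 : Matrix n n ℝ)
    (j : ℤ) :
    |TTj J G0 G1 G2 j - TTj J G0 G1 G2 (j + 1)|
      ≤ (8 : ℝ) ^ (-j) * (6 * (gs J G0 G1 G2 j + gs J G0 G1 G2 (j + 1))) := by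
  have h := tri_diff hJ hJJ (ps_scaled j G0 G2) (ps_scaled j G1 G0) (ps_scaled j G2 G1)
    (sub_ps_left j G0 G2) (sub_ps_right j G0 G2) (sub_ps_left j G1 G0) (sub_ps_right j G1 G0)
    (sub_ps_left j G2 G1) (sub_ps_right j G2 G1)
  rw [Tri_smul, Tri_smul, four_smul_zpow, four_smul_zpow, four_smul_zpow, ← mul_sub, abs_mul,
    ← eight_zpow] at h
  have h8 : (0 : ℝ) < (8 : ℝ) ^ j := by positivity
  rw [abs_of_pos h8] at h
  change (8 : ℝ) ^ j * |TTj J G0 G1 G2 j - TTj J G0 G1 G2 (j + 1)| ≤ _ at h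
  rw [_root_.zpow_neg, ← div_eq_inv_mul, le_div_iff₀ h8, mul_comm]
  refine h.trans (le_of_eq ?_)
  unfold gs
  ring

theorem TTj_crude {J : Matrix n n ℝ} (hJ : Jᵀ = J) (hJJ : J * J = 1) (G0 G1 G2 : Matrix n n ℝ)
    (j : ℤ) :
    |TTj J G0 G1 G2 j| ≤ (8 : ℝ) ^ (-j) * Fintype.card n := by
  have h := tri_crude hJ hJJ (ps_scaled j G0 G2) (ps_scaled j G1 G0) (ps_scaled j G2 G1)
    (sub_ps_left j G0 G2) (sub_ps_left j G1 G0) (sub_ps_left j G2 G1)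
  rw [Tri_smul, abs_mul, ← eight_zpow] at h
  have h8 : (0 : ℝ) < (8 : ℝ) ^ j := by positivity
  rw [abs_of_pos h8] at h
  change (8 : ℝ) ^ j * |TTj J G0 G1 G2 j| ≤ _ at h
  rw [_root_.zpow_neg, ← div_eq_inv_mul, le_div_iff₀ h8, mul_comm]
  exact h

theorem sum_Icc_int (f : ℤ → ℝ) (J : ℕ) :
    ∑ k ∈ Finset.range (2 * J + 1), f ((k : ℤ) - J) = ∑ j ∈ Finset.Icc (-(J : ℤ)) (J : ℤ), f j := by
  refine Finset.sum_bij (fun k _ => (k : ℤ) - J) ?_ ?_ ?_ ?_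
  · intro k hk
    rw [Finset.mem_range] at hk
    rw [Finset.mem_Icc]
    constructor <;> omega
  · intro a _ b _ h
    simpa using h
  · intro b hb
    rw [Finset.mem_Icc] at hb
    refine ⟨(b + J).toNat, ?_, ?_⟩
    · rw [Finset.mem_range]; omega
    · have : ((b + J).toNat : ℤ) = b + J := Int.toNat_of_nonneg (by omega)
      rw [this]; ring
  · intro k _; rfl

/-- telescoping over the scales -/
theorem TTj_total {J : Matrix n n ℝ} (hJ : Jᵀ = J) (hJJ : J * J = 1) (G0 G1 G2 : Matrix n n ℝ)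
    (N : ℕ) :
    |TTj J G0 G1 G2 (-(N : ℤ)) - TTj J G0 G1 G2 N|
      ≤ 54 * ∑ j ∈ Finset.Icc (-(N : ℤ)) (N : ℤ), (8 : ℝ) ^ (-j) * gs J G0 G1 G2 j := by
  set t : ℤ → ℝ := TTj J G0 G1 G2 with ht
  set a : ℤ → ℝ := fun j => (8 : ℝ) ^ (-j) * gs J G0 G1 G2 j with ha
  have ha0 : ∀ j, 0 ≤ a j := fun j => mul_nonneg (by positivity) (gs_nonneg hJ _ _ _ _)
  have hstep : ∀ j : ℤ, |t j - t (j + 1)| ≤ 6 * a j + 48 * a (j + 1) := by
    intro j
    refine (TTj_step hJ hJJ G0 G1 G2 j).trans (le_of_eq ?_)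
    have e8 : (8 : ℝ) ^ (-j) = 8 * (8 : ℝ) ^ (-(j + 1)) := by
      rw [neg_add, zpow_add₀ (by norm_num : (8 : ℝ) ≠ 0)]
      norm_num
      ring
    simp only [ha]
    have : (8 : ℝ) ^ (-j) * (6 * (gs J G0 G1 G2 j + gs J G0 G1 G2 (j + 1)))
        = 6 * ((8 : ℝ) ^ (-j) * gs J G0 G1 G2 j)
          + 6 * ((8 : ℝ) ^ (-j) * gs J G0 G1 G2 (j + 1)) := by ring
    rw [this]
    have h2 : 6 * ((8 : ℝ) ^ (-j) * gs J G0 G1 G2 (j + 1))
        = 48 * ((8 : ℝ) ^ (-(j + 1)) * gs J G0 G1 G2 (j + 1)) := by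
      rw [e8]; ring
    rw [h2]
  have htel : t (-(N : ℤ)) - t N
      = ∑ k ∈ Finset.range (2 * N), (t ((k : ℤ) - N) - t ((k : ℤ) - N + 1)) := by
    have h := Finset.sum_range_sub' (fun k : ℕ => t ((k : ℤ) - N)) (2 * N)
    simp only [Nat.cast_add, Nat.cast_one, Nat.cast_mul, Nat.cast_ofNat, Nat.cast_zero,
      zero_sub] at h
    have e1 : (2 : ℤ) * N - N = N := by ring
    rw [e1] at h
    rw [← h]
    refine Finset.sum_congr rfl fun k _ => ?_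
    have : (k : ℤ) - N + 1 = (k : ℤ) + 1 - N := by ring
    rw [this]
  rw [htel]
  refine (Finset.abs_sum_le_sum_abs _ _).trans ?_
  refine (Finset.sum_le_sum fun k _ => hstep _).trans ?_
  rw [← sum_Icc_int a N, Finset.sum_add_distrib, ← Finset.mul_sum, ← Finset.mul_sum]
  have b1 : ∑ k ∈ Finset.range (2 * N), a ((k : ℤ) - N)
      ≤ ∑ k ∈ Finset.range (2 * N + 1), a ((k : ℤ) - N) := by
    rw [Finset.sum_range_succ]
    linarith [ha0 (((2 * N : ℕ) : ℤ) - N)]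
  have b2 : ∑ k ∈ Finset.range (2 * N), a ((k : ℤ) - N + 1)
      ≤ ∑ k ∈ Finset.range (2 * N + 1), a ((k : ℤ) - N) := by
    rw [Finset.sum_range_succ']
    have : ∑ k ∈ Finset.range (2 * N), a (((k + 1 : ℕ) : ℤ) - N)
        = ∑ k ∈ Finset.range (2 * N), a ((k : ℤ) - N + 1) := by
      refine Finset.sum_congr rfl fun k _ => ?_
      congr 1; push_cast; ring
    rw [this]
    linarith [ha0 (((0 : ℕ) : ℤ) - N)]
  linarith

theorem TTj_tendsto_left (J G0 G1 G2 : Matrix n n ℝ) :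
    Tendsto (fun N : ℕ => TTj J G0 G1 G2 (-(N : ℤ))) atTop (nhds (Tri J J J G0 G1 G2)) := by
  have h0 := tendsto_res (XX G0 G2)
  have h1 := tendsto_res (XX G1 G0)
  have h2 := tendsto_res (XX G2 G1)
  have hc : Continuous fun p : Matrix n n ℝ × Matrix n n ℝ × Matrix n n ℝ =>
      Tri (p.1 * J * p.1) (p.2.1 * J * p.2.1) (p.2.2 * J * p.2.2) G0 G1 G2 := by
    unfold Tri
    fun_prop
  have h := (hc.tendsto (1, 1, 1)).comp (h0.prodMk_nhds (h1.prodMk_nhds h2))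
  simp only [Matrix.one_mul, Matrix.mul_one] at h
  exact h

theorem TTj_tendsto_right {J : Matrix n n ℝ} (hJ : Jᵀ = J) (hJJ : J * J = 1)
    (G0 G1 G2 : Matrix n n ℝ) :
    Tendsto (fun N : ℕ => TTj J G0 G1 G2 (N : ℤ)) atTop (nhds 0) := by
  refine squeeze_zero_norm (a := fun N : ℕ => (8 : ℝ) ^ (-(N : ℤ)) * Fintype.card n)
    (fun N => ?_) ?_
  · rw [Real.norm_eq_abs]
    exact TTj_crude hJ hJJ G0 G1 G2 N
  · have : Tendsto (fun N : ℕ => (1 / 8 : ℝ) ^ N * Fintype.card n) atTop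
        (nhds (0 * Fintype.card n)) :=
      (tendsto_pow_atTop_nhds_zero_of_lt_one (by norm_num) (by norm_num)).mul_const _
    rw [zero_mul] at this
    refine this.congr fun N => ?_
    rw [_root_.zpow_neg, zpow_natCast, one_div, inv_pow]

end scale

end P075
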