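import Vale.Agent.P075.Form

/-!
# P075: the interface between the discrete (matrix) theorem and the measure-theoretic reduction
-/

namespace P075

open MeasureTheory

/-! ### The discrete interface -/

/-- Sign of the position `i` in a block of `2^(r+1)` cells: `+1` left half, `-1` right half. -/
def sg (r i : ℕ) : ℝ := if i < 2 ^ r then 1 else -1

/-- The (unnormalised) discrete block form on the cube with index `(n0,n1,n2)` at level `r+1`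
(blocks of `2^(r+1)` cells). -/
def Tb (f0 f1 f2 : ℕ → ℕ → ℝ) (r n0 n1 n2 : ℕ) : ℝ :=
  ∑ i ∈ Finset.range (2 ^ (r + 1)), ∑ j ∈ Finset.range (2 ^ (r + 1)),
    ∑ l ∈ Finset.range (2 ^ (r + 1)),
      sg r i * sg r j * sg r l *
        (f0 (2 ^ (r + 1) * n0 + i) (2 ^ (r + 1) * n1 + j) *
          f1 (2 ^ (r + 1) * n1 + j) (2 ^ (r + 1) * n2 + l) *
          f2 (2 ^ (r + 1) * n2 + l) (2 ^ (r + 1) * n0 + i))

/-- The discrete theorem with constant `C`. -/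
def DiscBound (C : ℝ) : Prop :=
  ∀ (f0 f1 f2 : ℕ → ℕ → ℝ) (R : ℕ),
    ∑ r ∈ Finset.range R, ∑ n0 ∈ Finset.range (2 ^ (R - 1 - r)),
      ∑ n1 ∈ Finset.range (2 ^ (R - 1 - r)),
        |Tb f0 f1 f2 r n0 n1 (n0 ^^^ n1)| / 2 ^ (r + 1)
      ≤ C * ∑ i ∈ Finset.range (2 ^ R), ∑ j ∈ Finset.range (2 ^ R),
          (|f0 i j| ^ 3 + |f1 i j| ^ 3 + |f2 i j| ^ 3)

/-- The continuous conclusion with constant `C`. -/
def MainBound (C : ℝ) : Prop :=
  ∀ F : Fin 3 → ℝ × ℝ → ℝ, (∀ v, Measurable (F v)) → (∀ v, ∃ M : ℝ, ∀ x, |F v x| ≤ M) →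
    (∀ v, HasCompactSupport (F v)) →
    (∀ k : ℤ, Summable fun n : XorTriple => |LI k n.1 F|) ∧
    (∀ S : Finset ℤ, ∑ k ∈ S, ∑' n : XorTriple, |LI k n.1 F| ≤ C * ∏ v, norm3 (F v)) ∧
    (∀ (S : Finset ℤ) (ε : ℤ → ℝ), (∀ k, |ε k| ≤ 1) → |Lam S ε F| ≤ C * ∏ v, norm3 (F v))

end P075
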