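import Vale.Agent.P075.Pot

/-!
# P075 lemma package D: from the one-step inequality to the discrete theorem.
-/

namespace P075

open Matrix Filter Finset

/-! ### Index types -/

/-- Index type with `2^r` elements. -/
def TT : ℕ → Type
  | 0 => Unit
  | r + 1 => TT r ⊕ TT r

/-- Fintype instance. -/
instance instFT : (r : ℕ) → Fintype (TT r)
  | 0 => inferInstanceAs (Fintype Unit)
  | r + 1 => @instFintypeSum (TT r) (TT r) (instFT r) (instFT r)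

/-- DecidableEq instance. -/
instance instDE : (r : ℕ) → DecidableEq (TT r)
  | 0 => inferInstanceAs (DecidableEq Unit)
  | r + 1 => @instDecidableEqSum (TT r) (TT r) (instDE r) (instDE r)

/-- Enumeration of `TT r` by `{0, …, 2^r - 1}`. -/
def ee : (r : ℕ) → TT r → ℕ
  | 0, _ => 0
  | r + 1, x => Sum.elim (ee r) (fun y => 2 ^ r + ee r y) x

theorem ee_lt (r : ℕ) (x : TT r) : ee r x < 2 ^ r := by
  induction r with
  | zero => exact Nat.zero_lt_one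
  | succ r ih =>
    rcases x with x | x
    · have := ih x
      show ee r x < 2 ^ (r + 1)
      rw [pow_succ]; omega
    · have := ih x
      show 2 ^ r + ee r x < 2 ^ (r + 1)
      rw [pow_succ]; omega

theorem sum_ee (r : ℕ) (g : ℕ → ℝ) : ∑ x : TT r, g (ee r x) = ∑ i ∈ range (2 ^ r), g i := by
  induction r generalizing g with
  | zero =>
    show ∑ x : Unit, g 0 = _
    simp
  | succ r ih =>
    have h1 : ∑ x : TT (r + 1), g (ee (r + 1) x) =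
        ∑ x : TT r, g (ee r x) + ∑ x : TT r, g (2 ^ r + ee r x) :=
      Fintype.sum_sum_type (fun x : TT r ⊕ TT r => g (ee (r + 1) x))
    rw [h1, ih, ih (fun i => g (2 ^ r + i)), pow_succ, mul_two, Finset.sum_range_add]

/-- Blocks. -/
def blk (r : ℕ) (f : ℕ → ℕ → ℝ) (n m : ℕ) : Matrix (TT r) (TT r) ℝ :=
  fun i j => f (2 ^ r * n + ee r i) (2 ^ r * m + ee r j)

theorem blk_succ (r : ℕ) (f : ℕ → ℕ → ℝ) (n m : ℕ) (c : ℝ) :
    (fromBlocks (c • blk r f (2 * n) (2 * m)) (c • blk r f (2 * n) (2 * m + 1))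
      (c • blk r f (2 * n + 1) (2 * m)) (c • blk r f (2 * n + 1) (2 * m + 1)) :
        Matrix (TT r ⊕ TT r) (TT r ⊕ TT r) ℝ) = c • blk (r + 1) f n m := by
  have e1 : ∀ (n : ℕ) (e : ℕ), 2 ^ r * (2 * n) + e = 2 ^ (r + 1) * n + e := fun n e => by
    rw [pow_succ]; ring
  have e2 : ∀ (n : ℕ) (e : ℕ), 2 ^ r * (2 * n + 1) + e = 2 ^ (r + 1) * n + (2 ^ r + e) :=
    fun n e => by rw [pow_succ]; ring
  ext i j
  rcases i with i | i <;> rcases j with j | j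
  · show c * f (2 ^ r * (2 * n) + ee r i) (2 ^ r * (2 * m) + ee r j) =
      c * f (2 ^ (r + 1) * n + ee r i) (2 ^ (r + 1) * m + ee r j)
    rw [e1, e1]
  · show c * f (2 ^ r * (2 * n) + ee r i) (2 ^ r * (2 * m + 1) + ee r j) =
      c * f (2 ^ (r + 1) * n + ee r i) (2 ^ (r + 1) * m + (2 ^ r + ee r j))
    rw [e1, e2]
  · show c * f (2 ^ r * (2 * n + 1) + ee r i) (2 ^ r * (2 * m) + ee r j) =
      c * f (2 ^ (r + 1) * n + (2 ^ r + ee r i)) (2 ^ (r + 1) * m + ee r j)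
    rw [e1, e2]
  · show c * f (2 ^ r * (2 * n + 1) + ee r i) (2 ^ r * (2 * m + 1) + ee r j) =
      c * f (2 ^ (r + 1) * n + (2 ^ r + ee r i)) (2 ^ (r + 1) * m + (2 ^ r + ee r j))
    rw [e2, e2]

theorem ss_eq (r : ℕ) (x : TT r ⊕ TT r) : ss x = sg r (ee (r + 1) x) := by
  rcases x with x | x
  · show (1 : ℝ) = sg r (ee r x)
    unfold sg
    rw [if_pos (ee_lt r x)]
  · show (-1 : ℝ) = sg r (2 ^ r + ee r x)
    unfold sg
    rw [if_neg (by omega)]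

theorem Tsum_blk (r : ℕ) (f0 f1 f2 : ℕ → ℕ → ℝ) (n0 n1 n2 : ℕ) (c : ℝ) :
    Tsum (ι := TT r) ![c • blk (r + 1) f0 n0 n1, c • blk (r + 1) f1 n1 n2,
      c • blk (r + 1) f2 n2 n0] = c ^ 3 * Tb f0 f1 f2 r n0 n1 n2 := by
  unfold Tsum Tb
  have h1 : ∀ i j l : TT r ⊕ TT r, ss i * ss j * ss l *
      ((![c • blk (r + 1) f0 n0 n1, c • blk (r + 1) f1 n1 n2,
      c • blk (r + 1) f2 n2 n0] : Fin 3 → Matrix (TT r ⊕ TT r) (TT r ⊕ TT r) ℝ) 0 i j *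
      (![c • blk (r + 1) f0 n0 n1, c • blk (r + 1) f1 n1 n2,
      c • blk (r + 1) f2 n2 n0] : Fin 3 → Matrix (TT r ⊕ TT r) (TT r ⊕ TT r) ℝ) 1 j l *
      (![c • blk (r + 1) f0 n0 n1, c • blk (r + 1) f1 n1 n2,
      c • blk (r + 1) f2 n2 n0] : Fin 3 → Matrix (TT r ⊕ TT r) (TT r ⊕ TT r) ℝ) 2 l i) =
      (fun i j l => c ^ 3 * (sg r i * sg r j * sg r l *
        (f0 (2 ^ (r + 1) * n0 + i) (2 ^ (r + 1) * n1 + j) *
          f1 (2 ^ (r + 1) * n1 + j) (2 ^ (r + 1) * n2 + l) *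
          f2 (2 ^ (r + 1) * n2 + l) (2 ^ (r + 1) * n0 + i))))
        (ee (r + 1) i) (ee (r + 1) j) (ee (r + 1) l) := by
    intro i j l
    rw [ss_eq, ss_eq, ss_eq]
    show _ * _ * _ * ((c * f0 (2 ^ (r + 1) * n0 + ee (r + 1) i) (2 ^ (r + 1) * n1 + ee (r + 1) j)) *
      (c * f1 (2 ^ (r + 1) * n1 + ee (r + 1) j) (2 ^ (r + 1) * n2 + ee (r + 1) l)) *
      (c * f2 (2 ^ (r + 1) * n2 + ee (r + 1) l) (2 ^ (r + 1) * n0 + ee (r + 1) i))) = _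
    simp only
    ring
  simp only [h1]
  have key : ∀ G : ℕ → ℕ → ℕ → ℝ, ∑ i : TT r ⊕ TT r, ∑ j : TT r ⊕ TT r, ∑ l : TT r ⊕ TT r,
      G (ee (r + 1) i) (ee (r + 1) j) (ee (r + 1) l) =
      ∑ i ∈ range (2 ^ (r + 1)), ∑ j ∈ range (2 ^ (r + 1)), ∑ l ∈ range (2 ^ (r + 1)), G i j l := by
    intro G
    have a1 : ∀ i j : ℕ, ∑ l : TT r ⊕ TT r, G i j (ee (r + 1) l) =
        ∑ l ∈ range (2 ^ (r + 1)), G i j l := fun i j => sum_ee (r + 1) (G i j)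
    have a2 : ∀ i : ℕ, ∑ j : TT r ⊕ TT r, ∑ l ∈ range (2 ^ (r + 1)), G i (ee (r + 1) j) l =
        ∑ j ∈ range (2 ^ (r + 1)), ∑ l ∈ range (2 ^ (r + 1)), G i j l := fun i =>
      sum_ee (r + 1) (fun j => ∑ l ∈ range (2 ^ (r + 1)), G i j l)
    simp only [a1, a2]
    exact sum_ee (r + 1) (fun i => ∑ j ∈ range (2 ^ (r + 1)), ∑ l ∈ range (2 ^ (r + 1)), G i j l)
  rw [key (fun i j l => c ^ 3 * (sg r i * sg r j * sg r l *
        (f0 (2 ^ (r + 1) * n0 + i) (2 ^ (r + 1) * n1 + j) *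
          f1 (2 ^ (r + 1) * n1 + j) (2 ^ (r + 1) * n2 + l) *
          f2 (2 ^ (r + 1) * n2 + l) (2 ^ (r + 1) * n0 + i))))]
  simp only [Finset.mul_sum]

/-! ### XOR facts -/

theorem xor_ee (a b : ℕ) : (2 * a) ^^^ (2 * b) = 2 * (a ^^^ b) := by
  have h1 : ((2 * a) ^^^ (2 * b)) / 2 = a ^^^ b := by rw [Nat.xor_div_two]; congr 1 <;> omega
  have h2 : ((2 * a) ^^^ (2 * b)) % 2 = 0 := by rw [Nat.xor_mod_two_eq]; omega
  omega

theorem xor_eo (a b : ℕ) : (2 * a) ^^^ (2 * b + 1) = 2 * (a ^^^ b) + 1 := by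
  have h1 : ((2 * a) ^^^ (2 * b + 1)) / 2 = a ^^^ b := by rw [Nat.xor_div_two]; congr 1 <;> omega
  have h2 : ((2 * a) ^^^ (2 * b + 1)) % 2 = 1 := by rw [Nat.xor_mod_two_eq]; omega
  omega

theorem xor_oe (a b : ℕ) : (2 * a + 1) ^^^ (2 * b) = 2 * (a ^^^ b) + 1 := by
  have h1 : ((2 * a + 1) ^^^ (2 * b)) / 2 = a ^^^ b := by rw [Nat.xor_div_two]; congr 1 <;> omega
  have h2 : ((2 * a + 1) ^^^ (2 * b)) % 2 = 1 := by rw [Nat.xor_mod_two_eq]; omega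
  omega

theorem xor_oo (a b : ℕ) : (2 * a + 1) ^^^ (2 * b + 1) = 2 * (a ^^^ b) := by
  have h1 : ((2 * a + 1) ^^^ (2 * b + 1)) / 2 = a ^^^ b := by
    rw [Nat.xor_div_two]; congr 1 <;> omega
  have h2 : ((2 * a + 1) ^^^ (2 * b + 1)) % 2 = 0 := by rw [Nat.xor_mod_two_eq]; omega
  omega

theorem sum_double (N : ℕ) (g : ℕ → ℝ) :
    ∑ m ∈ range (2 * N), g m = ∑ n ∈ range N, (g (2 * n) + g (2 * n + 1)) := by
  induction N with
  | zero => simp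
  | succ N ih =>
    rw [show 2 * (N + 1) = 2 * N + 1 + 1 by ring, Finset.sum_range_succ, Finset.sum_range_succ, ih,
      Finset.sum_range_succ]
    ring

theorem sum_children (N : ℕ) (w : ℕ → ℕ → ℕ → ℝ) :
    ∑ m0 ∈ range (2 * N), ∑ m1 ∈ range (2 * N), w m0 m1 (m0 ^^^ m1) =
      ∑ n0 ∈ range N, ∑ n1 ∈ range N,
        (w (2 * n0) (2 * n1) (2 * (n0 ^^^ n1)) + w (2 * n0) (2 * n1 + 1) (2 * (n0 ^^^ n1) + 1) +
          w (2 * n0 + 1) (2 * n1) (2 * (n0 ^^^ n1) + 1) +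
          w (2 * n0 + 1) (2 * n1 + 1) (2 * (n0 ^^^ n1))) := by
  rw [sum_double]
  refine Finset.sum_congr rfl fun n0 _ => ?_
  rw [sum_double, sum_double, ← Finset.sum_add_distrib]
  refine Finset.sum_congr rfl fun n1 _ => ?_
  rw [xor_ee, xor_eo, xor_oe, xor_oo]
  ring

/-! ### The normalised triples -/

/-- The normalised triple of blocks at level `r`. -/
noncomputable def gg (r : ℕ) (f0 f1 f2 : ℕ → ℕ → ℝ) (n0 n1 n2 : ℕ) :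
    Fin 3 → Matrix (TT r) (TT r) ℝ :=
  ![((2 : ℝ) ^ r)⁻¹ • blk r f0 n0 n1, ((2 : ℝ) ^ r)⁻¹ • blk r f1 n1 n2,
    ((2 : ℝ) ^ r)⁻¹ • blk r f2 n2 n0]

theorem step {C1 : ℝ} (h : CoreBound C1) (r : ℕ) (f0 f1 f2 : ℕ → ℕ → ℝ) (n0 n1 n2 : ℕ) :
    ∃ τ : ℕ → ℝ, Tendsto τ atTop (nhds (((2 : ℝ) ^ (r + 1))⁻¹ ^ 3 * Tb f0 f1 f2 r n0 n1 n2)) ∧
      ∀ J : ℕ, |τ J| ≤ C1 *
        ((WW J (gg r f0 f1 f2 (2 * n0) (2 * n1) (2 * n2))
          + WW J (gg r f0 f1 f2 (2 * n0) (2 * n1 + 1) (2 * n2 + 1))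
          + WW J (gg r f0 f1 f2 (2 * n0 + 1) (2 * n1) (2 * n2 + 1))
          + WW J (gg r f0 f1 f2 (2 * n0 + 1) (2 * n1 + 1) (2 * n2))) / 4
          - WW J (gg (r + 1) f0 f1 f2 n0 n1 n2)) := by
  set c : ℝ := ((2 : ℝ) ^ (r + 1))⁻¹ with hc
  have h2c : (2 : ℝ) * c = ((2 : ℝ) ^ r)⁻¹ := by
    rw [hc, pow_succ]; field_simp
  have hs : ∀ M : Matrix (TT r) (TT r) ℝ, (2 : ℝ) • (c • M) = ((2 : ℝ) ^ r)⁻¹ • M := fun M => by
    rw [smul_smul, h2c]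
  let A : Fin 3 → Matrix (TT r) (TT r) ℝ :=
    ![c • blk r f0 (2 * n0) (2 * n1), c • blk r f1 (2 * n1) (2 * n2),
      c • blk r f2 (2 * n2) (2 * n0)]
  let B : Fin 3 → Matrix (TT r) (TT r) ℝ :=
    ![c • blk r f0 (2 * n0) (2 * n1 + 1), c • blk r f1 (2 * n1) (2 * n2 + 1),
      c • blk r f2 (2 * n2) (2 * n0 + 1)]
  let C : Fin 3 → Matrix (TT r) (TT r) ℝ :=
    ![c • blk r f0 (2 * n0 + 1) (2 * n1), c • blk r f1 (2 * n1 + 1) (2 * n2),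
      c • blk r f2 (2 * n2 + 1) (2 * n0)]
  let D : Fin 3 → Matrix (TT r) (TT r) ℝ :=
    ![c • blk r f0 (2 * n0 + 1) (2 * n1 + 1), c • blk r f1 (2 * n1 + 1) (2 * n2 + 1),
      c • blk r f2 (2 * n2 + 1) (2 * n0 + 1)]
  obtain ⟨τ, h1, h2⟩ := h (TT r) A B C D
  have e0 : (![(2 : ℝ) • A 0, (2 : ℝ) • A 1, (2 : ℝ) • A 2] : Fin 3 → Matrix (TT r) (TT r) ℝ) =
      gg r f0 f1 f2 (2 * n0) (2 * n1) (2 * n2) := by
    funext v; fin_cases v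
    · exact hs _
    · exact hs _
    · exact hs _
  have e1 : (![(2 : ℝ) • B 0, (2 : ℝ) • D 1, (2 : ℝ) • C 2] : Fin 3 → Matrix (TT r) (TT r) ℝ) =
      gg r f0 f1 f2 (2 * n0) (2 * n1 + 1) (2 * n2 + 1) := by
    funext v; fin_cases v
    · exact hs _
    · exact hs _
    · exact hs _
  have e2 : (![(2 : ℝ) • C 0, (2 : ℝ) • B 1, (2 : ℝ) • D 2] : Fin 3 → Matrix (TT r) (TT r) ℝ) =
      gg r f0 f1 f2 (2 * n0 + 1) (2 * n1) (2 * n2 + 1) := by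
    funext v; fin_cases v
    · exact hs _
    · exact hs _
    · exact hs _
  have e3 : (![(2 : ℝ) • D 0, (2 : ℝ) • C 1, (2 : ℝ) • B 2] : Fin 3 → Matrix (TT r) (TT r) ℝ) =
      gg r f0 f1 f2 (2 * n0 + 1) (2 * n1 + 1) (2 * n2) := by
    funext v; fin_cases v
    · exact hs _
    · exact hs _
    · exact hs _
  have e4 : (fun v : Fin 3 => fromBlocks (A v) (B v) (C v) (D v)) =
      ![c • blk (r + 1) f0 n0 n1, c • blk (r + 1) f1 n1 n2, c • blk (r + 1) f2 n2 n0] := by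
    funext v
    fin_cases v
    · exact blk_succ r f0 n0 n1 c
    · exact blk_succ r f1 n1 n2 c
    · exact blk_succ r f2 n2 n0 c
  refine ⟨τ, ?_, fun J => ?_⟩
  · have e5 := Tsum_blk r f0 f1 f2 n0 n1 n2 c
    rw [← e5]
    rw [e4] at h1
    exact h1
  · have h3 := h2 J
    rw [e0, e1, e2, e3, e4] at h3
    exact h3


/-! ### Leaves -/

theorem phi_unit (Y : Matrix Unit Unit ℝ) (hY : 0 ≤ Y () ()) :
    phi Y = (Y () ()) ^ 2 / (1 + Y () ()) := by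
  unfold phi
  rw [Matrix.inv_subsingleton]
  have h1 : (1 + Y () ()) ≠ 0 := by linarith
  simp only [Matrix.trace, Matrix.diag, Finset.univ_unique, Finset.sum_singleton,
    Fintype.card_unit, Matrix.diagonal_apply_eq, Matrix.add_apply, Matrix.one_apply_eq,
    Ring.inverse_eq_inv', PUnit.default_eq_unit]
  push_cast
  field_simp
  ring

theorem XX_unit (F G : Matrix Unit Unit ℝ) : XX F G () () = F () () ^ 2 + G () () ^ 2 := by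
  unfold XX
  simp only [Matrix.add_apply, Matrix.mul_apply, Matrix.transpose_apply, Finset.univ_unique,
    Finset.sum_singleton, PUnit.default_eq_unit]
  ring

/-- One-variable telescoping bound for the sum over scales. -/
theorem scale_sum (J : ℕ) {s : ℝ} (hs : 0 ≤ s) :
    ∑ j ∈ Finset.Icc (-(J : ℤ)) (J : ℤ), ((2 : ℝ) ^ j * s) / (1 + ((2 : ℝ) ^ j * s) ^ 2) ≤
      7 / 2 := by
  set Φ : ℝ → ℝ := fun ρ => 7 / 2 * (ρ / (1 + ρ)) with hΦ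
  have h1 : ∀ ρ : ℝ, 0 ≤ ρ → ρ / (1 + ρ ^ 2) ≤ Φ (2 * ρ) - Φ ρ := by
    intro ρ hρ
    have e1 : Φ (2 * ρ) - Φ ρ = 7 / 2 * (ρ / ((1 + 2 * ρ) * (1 + ρ))) := by
      rw [hΦ]
      simp only
      field_simp
      ring
    rw [e1, div_le_iff₀ (by positivity)]
    have e2 : 7 / 2 * (ρ / ((1 + 2 * ρ) * (1 + ρ))) * (1 + ρ ^ 2) =
        ρ * ((7 / 2 * (1 + ρ ^ 2)) / ((1 + 2 * ρ) * (1 + ρ))) := by
      field_simp
    rw [e2]
    refine le_mul_of_one_le_right hρ ?_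
    rw [one_le_div (by positivity)]
    nlinarith [sq_nonneg (ρ - 1)]
  have h2 : ∀ ρ : ℝ, 0 ≤ ρ → 0 ≤ Φ ρ := fun ρ hρ => by rw [hΦ]; positivity
  have h3 : ∀ ρ : ℝ, 0 ≤ ρ → Φ ρ ≤ 7 / 2 := fun ρ hρ => by
    rw [hΦ]
    simp only
    have : ρ / (1 + ρ) ≤ 1 := by rw [div_le_one (by positivity)]; linarith
    linarith
  rw [Int.Icc_eq_finset_map, Finset.sum_map]
  set K := ((J : ℤ) + 1 - -(J : ℤ)).toNat
  calc ∑ x ∈ range K, ((2 : ℝ) ^ ((Nat.castEmbedding.trans (addLeftEmbedding (-(J : ℤ)))) x) * s) /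
        (1 + ((2 : ℝ) ^ ((Nat.castEmbedding.trans (addLeftEmbedding (-(J : ℤ)))) x) * s) ^ 2)
      ≤ ∑ x ∈ range K, (Φ ((2 : ℝ) ^ (-(J : ℤ) + ((x + 1 : ℕ) : ℤ)) * s) -
          Φ ((2 : ℝ) ^ (-(J : ℤ) + (x : ℤ)) * s)) := by
        refine Finset.sum_le_sum fun x _ => ?_
        have := h1 ((2 : ℝ) ^ (-(J : ℤ) + (x : ℤ)) * s) (by positivity)
        have e : (2 : ℝ) ^ (-(J : ℤ) + ((x + 1 : ℕ) : ℤ)) * s =
            2 * ((2 : ℝ) ^ (-(J : ℤ) + (x : ℤ)) * s) := by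
          rw [show (-(J : ℤ) + ((x + 1 : ℕ) : ℤ)) = (-(J : ℤ) + (x : ℤ)) + 1 by push_cast; ring,
            zpow_add_one₀ (by norm_num)]
          ring
        rw [e]
        exact this
    _ = Φ ((2 : ℝ) ^ (-(J : ℤ) + (K : ℤ)) * s) - Φ ((2 : ℝ) ^ (-(J : ℤ) + ((0 : ℕ) : ℤ)) * s) :=
        Finset.sum_range_sub (fun x : ℕ => Φ ((2 : ℝ) ^ (-(J : ℤ) + (x : ℤ)) * s)) K
    _ ≤ 7 / 2 :=
        (sub_le_self _ (h2 _ (by positivity))).trans (h3 _ (by positivity))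

theorem phi_sum (J : ℕ) (a b : ℝ) :
    ∑ j ∈ Finset.Icc (-(J : ℤ)) (J : ℤ), (8 : ℝ) ^ (-j) *
      ((((2 : ℝ) ^ j * a) ^ 2 + ((2 : ℝ) ^ j * b) ^ 2) ^ 2 /
        (1 + (((2 : ℝ) ^ j * a) ^ 2 + ((2 : ℝ) ^ j * b) ^ 2))) ≤ 14 * (|a| ^ 3 + |b| ^ 3) := by
  set s : ℝ := Real.sqrt (a ^ 2 + b ^ 2) with hs
  have hs0 : 0 ≤ s := Real.sqrt_nonneg _
  have hs2 : s ^ 2 = a ^ 2 + b ^ 2 := Real.sq_sqrt (by positivity)
  have hsle : s ≤ |a| + |b| := by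
    rw [hs]
    refine Real.sqrt_le_iff.mpr ⟨by positivity, ?_⟩
    have := mul_nonneg (abs_nonneg a) (abs_nonneg b)
    rw [← sq_abs a, ← sq_abs b]
    nlinarith
  have e1 : ∀ j : ℤ, (8 : ℝ) ^ (-j) *
      ((((2 : ℝ) ^ j * a) ^ 2 + ((2 : ℝ) ^ j * b) ^ 2) ^ 2 /
        (1 + (((2 : ℝ) ^ j * a) ^ 2 + ((2 : ℝ) ^ j * b) ^ 2))) =
      s ^ 3 * (((2 : ℝ) ^ j * s) / (1 + ((2 : ℝ) ^ j * s) ^ 2)) := by
    intro j
    have hq : (0 : ℝ) < (2 : ℝ) ^ j := by positivity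
    have h8 : (8 : ℝ) ^ (-j) = (((2 : ℝ) ^ j) ^ 3)⁻¹ := by
      rw [_root_.zpow_neg, show (8 : ℝ) = 2 ^ 3 by norm_num, ← zpow_natCast, ← _root_.zpow_mul, ← zpow_natCast,
        ← _root_.zpow_mul, mul_comm]
    rw [h8]
    set q := (2 : ℝ) ^ j
    have e2 : (q * a) ^ 2 + (q * b) ^ 2 = (q * s) ^ 2 := by
      rw [mul_pow q s, hs2]; ring
    rw [e2]
    have : (1 + (q * s) ^ 2) ≠ 0 := by positivity
    field_simp
  simp only [e1]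
  rw [← Finset.mul_sum]
  have h1 := scale_sum J hs0
  have h2 : s ^ 3 ≤ (|a| + |b|) ^ 3 := pow_le_pow_left₀ hs0 hsle 3
  have h3 : (|a| + |b|) ^ 3 ≤ 4 * (|a| ^ 3 + |b| ^ 3) := by
    have ha := abs_nonneg a
    have hb := abs_nonneg b
    nlinarith [mul_nonneg (add_nonneg ha hb) (sq_nonneg (|a| - |b|))]
  calc s ^ 3 * ∑ j ∈ Finset.Icc (-(J : ℤ)) (J : ℤ),
        ((2 : ℝ) ^ j * s) / (1 + ((2 : ℝ) ^ j * s) ^ 2) ≤ s ^ 3 * (7 / 2) :=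
        mul_le_mul_of_nonneg_left h1 (by positivity)
    _ ≤ 14 * (|a| ^ 3 + |b| ^ 3) := by linarith

theorem WW_unit (J : ℕ) (F : Fin 3 → Matrix Unit Unit ℝ) :
    WW J F ≤ 28 * (|F 0 () ()| ^ 3 + |F 1 () ()| ^ 3 + |F 2 () ()| ^ 3) := by
  have hphi : ∀ (j : ℤ) (A B : Matrix Unit Unit ℝ),
      phi (XX ((2 : ℝ) ^ j • A) ((2 : ℝ) ^ j • B)) =
      (((2 : ℝ) ^ j * A () ()) ^ 2 + ((2 : ℝ) ^ j * B () ()) ^ 2) ^ 2 /
        (1 + (((2 : ℝ) ^ j * A () ()) ^ 2 + ((2 : ℝ) ^ j * B () ()) ^ 2)) := by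
    intro j A B
    have h1 : XX ((2 : ℝ) ^ j • A) ((2 : ℝ) ^ j • B) () () =
        ((2 : ℝ) ^ j * A () ()) ^ 2 + ((2 : ℝ) ^ j * B () ()) ^ 2 := by
      rw [XX_unit, Matrix.smul_apply, Matrix.smul_apply, smul_eq_mul, smul_eq_mul]
    rw [phi_unit _ (by rw [h1]; positivity), h1]
  unfold WW Psi
  simp only [hphi, mul_add, Finset.sum_add_distrib]
  have h0 := phi_sum J (F 0 () ()) (F 2 () ())
  have h1 := phi_sum J (F 1 () ()) (F 0 () ())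
  have h2 := phi_sum J (F 2 () ()) (F 1 () ())
  linarith

theorem WW_leaf (J : ℕ) (f0 f1 f2 : ℕ → ℕ → ℝ) (n0 n1 n2 : ℕ) :
    WW J (gg 0 f0 f1 f2 n0 n1 n2) ≤ 28 * (|f0 n0 n1| ^ 3 + |f1 n1 n2| ^ 3 + |f2 n2 n0| ^ 3) := by
  have h := WW_unit J (gg 0 f0 f1 f2 n0 n1 n2)
  have e : ∀ (f : ℕ → ℕ → ℝ) (n m : ℕ),
      (((2 : ℝ) ^ 0)⁻¹ • blk 0 f n m : Matrix Unit Unit ℝ) () () = f n m := by
    intro f n m
    show ((2 : ℝ) ^ 0)⁻¹ * f (2 ^ 0 * n + 0) (2 ^ 0 * m + 0) = f n m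
    simp
  have e0 : (gg 0 f0 f1 f2 n0 n1 n2 0 : Matrix Unit Unit ℝ) () () = f0 n0 n1 := e f0 n0 n1
  have e1 : (gg 0 f0 f1 f2 n0 n1 n2 1 : Matrix Unit Unit ℝ) () () = f1 n1 n2 := e f1 n1 n2
  have e2 : (gg 0 f0 f1 f2 n0 n1 n2 2 : Matrix Unit Unit ℝ) () () = f2 n2 n0 := e f2 n2 n0
  rw [e0, e1, e2] at h
  exact h

/-! ### Telescoping -/

theorem sum_xor_perm (R a : ℕ) (ha : a < 2 ^ R) (g : ℕ → ℝ) :
    ∑ n ∈ range (2 ^ R), g (n ^^^ a) = ∑ n ∈ range (2 ^ R), g n := by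
  refine Finset.sum_nbij' (fun n => n ^^^ a) (fun n => n ^^^ a) ?_ ?_ ?_ ?_ ?_
  · intro n hn
    rw [Finset.mem_range] at hn ⊢
    exact Nat.xor_lt_two_pow hn ha
  · intro n hn
    rw [Finset.mem_range] at hn ⊢
    exact Nat.xor_lt_two_pow hn ha
  · intro n _
    exact Nat.xor_xor_cancel_right _ _
  · intro n _
    exact Nat.xor_xor_cancel_right _ _
  · intro n _
    rfl

theorem leaf_total (J R : ℕ) (f0 f1 f2 : ℕ → ℕ → ℝ) :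
    ∑ n0 ∈ range (2 ^ R), ∑ n1 ∈ range (2 ^ R), WW J (gg 0 f0 f1 f2 n0 n1 (n0 ^^^ n1)) ≤
      28 * ∑ i ∈ range (2 ^ R), ∑ j ∈ range (2 ^ R), (|f0 i j| ^ 3 + |f1 i j| ^ 3 + |f2 i j| ^ 3) := by
  have h1 : ∑ n0 ∈ range (2 ^ R), ∑ n1 ∈ range (2 ^ R), |f1 n1 (n0 ^^^ n1)| ^ 3 =
      ∑ i ∈ range (2 ^ R), ∑ j ∈ range (2 ^ R), |f1 i j| ^ 3 := by
    rw [Finset.sum_comm]
    refine Finset.sum_congr rfl fun n1 hn1 => ?_
    exact sum_xor_perm R n1 (Finset.mem_range.mp hn1) (fun m => |f1 n1 m| ^ 3)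
  have h2 : ∑ n0 ∈ range (2 ^ R), ∑ n1 ∈ range (2 ^ R), |f2 (n0 ^^^ n1) n0| ^ 3 =
      ∑ i ∈ range (2 ^ R), ∑ j ∈ range (2 ^ R), |f2 i j| ^ 3 := by
    rw [Finset.sum_comm (f := fun i j => |f2 i j| ^ 3)]
    refine Finset.sum_congr rfl fun n0 hn0 => ?_
    have := sum_xor_perm R n0 (Finset.mem_range.mp hn0) (fun m => |f2 m n0| ^ 3)
    rw [← this]
    refine Finset.sum_congr rfl fun n1 _ => ?_
    rw [Nat.xor_comm]
  calc ∑ n0 ∈ range (2 ^ R), ∑ n1 ∈ range (2 ^ R), WW J (gg 0 f0 f1 f2 n0 n1 (n0 ^^^ n1))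
      ≤ ∑ n0 ∈ range (2 ^ R), ∑ n1 ∈ range (2 ^ R), 28 * (|f0 n0 n1| ^ 3 +
          |f1 n1 (n0 ^^^ n1)| ^ 3 + |f2 (n0 ^^^ n1) n0| ^ 3) :=
        Finset.sum_le_sum fun n0 _ => Finset.sum_le_sum fun n1 _ => WW_leaf J f0 f1 f2 _ _ _
    _ = 28 * (∑ n0 ∈ range (2 ^ R), ∑ n1 ∈ range (2 ^ R), |f0 n0 n1| ^ 3 +
          ∑ n0 ∈ range (2 ^ R), ∑ n1 ∈ range (2 ^ R), |f1 n1 (n0 ^^^ n1)| ^ 3 +
          ∑ n0 ∈ range (2 ^ R), ∑ n1 ∈ range (2 ^ R), |f2 (n0 ^^^ n1) n0| ^ 3) := by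
        simp only [← Finset.mul_sum, Finset.sum_add_distrib]
    _ = _ := by
        rw [h1, h2]
        simp only [Finset.sum_add_distrib]

/-- Telescoping over all dyadic levels. -/
theorem disc_of_core {C1 : ℝ} (hC : 0 ≤ C1) (h : CoreBound C1)
    (hW : ∀ (ι : Type) [Fintype ι] [DecidableEq ι] (J : ℕ) (F : Fin 3 → Matrix ι ι ℝ),
      0 ≤ WW J F) :
    ∃ C : ℝ, 0 ≤ C ∧ DiscBound C := by
  refine ⟨C1 * 28, by positivity, fun f0 f1 f2 R => ?_⟩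
  choose τ hτ1 hτ2 using fun r n0 n1 => step h r f0 f1 f2 n0 n1 (n0 ^^^ n1)
  set w : ℕ → ℕ → ℕ → ℕ → ℕ → ℝ := fun J r n0 n1 n2 => WW J (gg r f0 f1 f2 n0 n1 n2) with hw
  set S : ℕ → ℕ → ℝ := fun J r => 4 ^ r * ∑ n0 ∈ range (2 ^ (R - r)), ∑ n1 ∈ range (2 ^ (R - r)),
    w J r n0 n1 (n0 ^^^ n1) with hS
  have hJ : ∀ J, ∑ r ∈ range R, 4 ^ (r + 1) * ∑ n0 ∈ range (2 ^ (R - 1 - r)),
      ∑ n1 ∈ range (2 ^ (R - 1 - r)), |τ r n0 n1 J| ≤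
      C1 * (28 * ∑ i ∈ range (2 ^ R), ∑ j ∈ range (2 ^ R),
        (|f0 i j| ^ 3 + |f1 i j| ^ 3 + |f2 i j| ^ 3)) := by
    intro J
    have hr : ∀ r ∈ range R, (4 : ℝ) ^ (r + 1) * ∑ n0 ∈ range (2 ^ (R - 1 - r)),
        ∑ n1 ∈ range (2 ^ (R - 1 - r)), |τ r n0 n1 J| ≤ C1 * (S J r - S J (r + 1)) := by
      intro r hr
      rw [Finset.mem_range] at hr
      have e1 : R - (r + 1) = R - 1 - r := by omega
      have e2 : 2 ^ (R - r) = 2 * 2 ^ (R - 1 - r) := by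
        rw [← pow_succ']; congr 1; omega
      rw [hS]
      simp only
      rw [e1, e2, sum_children (2 ^ (R - 1 - r)) (w J r)]
      set N := 2 ^ (R - 1 - r)
      calc (4 : ℝ) ^ (r + 1) * ∑ n0 ∈ range N, ∑ n1 ∈ range N, |τ r n0 n1 J|
          ≤ 4 ^ (r + 1) * ∑ n0 ∈ range N, ∑ n1 ∈ range N, C1 *
            ((w J r (2 * n0) (2 * n1) (2 * (n0 ^^^ n1))
              + w J r (2 * n0) (2 * n1 + 1) (2 * (n0 ^^^ n1) + 1)
              + w J r (2 * n0 + 1) (2 * n1) (2 * (n0 ^^^ n1) + 1)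
              + w J r (2 * n0 + 1) (2 * n1 + 1) (2 * (n0 ^^^ n1))) / 4
              - w J (r + 1) n0 n1 (n0 ^^^ n1)) := by
            refine mul_le_mul_of_nonneg_left ?_ (by positivity)
            exact Finset.sum_le_sum fun n0 _ => Finset.sum_le_sum fun n1 _ => hτ2 r n0 n1 J
        _ = _ := by
            simp only [← Finset.mul_sum, Finset.sum_sub_distrib, ← Finset.sum_div]
            rw [pow_succ]
            ring
    calc ∑ r ∈ range R, (4 : ℝ) ^ (r + 1) * ∑ n0 ∈ range (2 ^ (R - 1 - r)),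
          ∑ n1 ∈ range (2 ^ (R - 1 - r)), |τ r n0 n1 J|
        ≤ ∑ r ∈ range R, C1 * (S J r - S J (r + 1)) := Finset.sum_le_sum hr
      _ = C1 * (S J 0 - S J R) := by rw [← Finset.mul_sum, Finset.sum_range_sub']
      _ ≤ C1 * S J 0 := by
          refine mul_le_mul_of_nonneg_left ?_ hC
          have : 0 ≤ S J R := by
            rw [hS]
            simp only
            refine mul_nonneg (by positivity) (Finset.sum_nonneg fun _ _ =>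
              Finset.sum_nonneg fun _ _ => hW _ _ _)
          linarith
      _ ≤ _ := by
          refine mul_le_mul_of_nonneg_left ?_ hC
          rw [hS]
          simp only [pow_zero, one_mul, Nat.sub_zero]
          exact leaf_total J R f0 f1 f2
  have hlim : Tendsto (fun J => ∑ r ∈ range R, (4 : ℝ) ^ (r + 1) *
      ∑ n0 ∈ range (2 ^ (R - 1 - r)), ∑ n1 ∈ range (2 ^ (R - 1 - r)), |τ r n0 n1 J|) atTop
      (nhds (∑ r ∈ range R, (4 : ℝ) ^ (r + 1) * ∑ n0 ∈ range (2 ^ (R - 1 - r)),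
        ∑ n1 ∈ range (2 ^ (R - 1 - r)),
          |((2 : ℝ) ^ (r + 1))⁻¹ ^ 3 * Tb f0 f1 f2 r n0 n1 (n0 ^^^ n1)|)) := by
    refine tendsto_finsetSum _ fun r _ => ?_
    refine Tendsto.const_mul _ ?_
    refine tendsto_finsetSum _ fun n0 _ => ?_
    refine tendsto_finsetSum _ fun n1 _ => ?_
    exact (hτ1 r n0 n1).abs
  have hfin := le_of_tendsto' hlim hJ
  rw [mul_assoc]
  refine le_trans (le_of_eq ?_) hfin
  refine Finset.sum_congr rfl fun r _ => ?_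
  rw [Finset.mul_sum]
  refine Finset.sum_congr rfl fun n0 _ => ?_
  rw [Finset.mul_sum]
  refine Finset.sum_congr rfl fun n1 _ => ?_
  rw [abs_mul, abs_of_nonneg (by positivity : (0 : ℝ) ≤ ((2 : ℝ) ^ (r + 1))⁻¹ ^ 3)]
  have h4 : (4 : ℝ) ^ (r + 1) = (2 ^ (r + 1)) ^ 2 := by
    rw [← pow_mul, mul_comm (r + 1) 2, pow_mul]; norm_num
  rw [h4]
  have hp : (0 : ℝ) < 2 ^ (r + 1) := by positivity
  field_simp

end P075
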