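import Vale.Agent.P075.Meas
import Vale.Agent.P075.Disc
import Vale.Agent.P075.CoreEnd

/-!
# P075: the dyadic triangular Hilbert transform is bounded
-/

namespace P075

theorem main_bound : ∃ C : ℝ, 0 ≤ C ∧ MainBound C := by
  obtain ⟨C, hC, h⟩ := disc_of_core (by norm_num) core_bound WW_nonneg
  exact ⟨3 * C, by positivity, main_of_disc hC h⟩

theorem Lam_congr (S : Finset ℤ) (ε ε' : ℤ → ℝ) (F : Fin 3 → ℝ × ℝ → ℝ)
    (h : ∀ k ∈ S, ε k = ε' k) : Lam S ε F = Lam S ε' F := by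
  unfold Lam
  exact Finset.sum_congr rfl fun k hk => by rw [h k hk]

end P075
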