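import Mathlib

/-!
# P075, question Q2: the dyadic model of the triangular Hilbert transform

Definitions exactly as in the problem file.
-/

namespace P075

open MeasureTheory

/-- The dyadic interval `[2^k n, 2^k (n+1))` of `𝒟_k` with index `n`. -/
def dyadicI (k : ℤ) (n : ℕ) : Set ℝ := Set.Ico ((2 : ℝ) ^ k * n) ((2 : ℝ) ^ k * (n + 1))

/-- Left half of `dyadicI k n`. -/
def leftHalf (k : ℤ) (n : ℕ) : Set ℝ := Set.Ico ((2 : ℝ) ^ k * n) ((2 : ℝ) ^ k * (n + 1 / 2))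

/-- Right half of `dyadicI k n`. -/
def rightHalf (k : ℤ) (n : ℕ) : Set ℝ :=
  Set.Ico ((2 : ℝ) ^ k * (n + 1 / 2)) ((2 : ℝ) ^ k * (n + 1))

/-- `h_I = 1_{left half} - 1_{right half}` for `I = dyadicI k n`. -/
noncomputable def haar (k : ℤ) (n : ℕ) (x : ℝ) : ℝ :=
  (leftHalf k n).indicator (fun _ => (1 : ℝ)) x - (rightHalf k n).indicator (fun _ => (1 : ℝ)) x

/-- `L_I(F_0,F_1,F_2)` for `I = (I_0,I_1,I_2)`, `I_v = dyadicI k n_v`: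
`2^{-k} ∫_{I_0×I_1×I_2} F_0(x_0,x_1) F_1(x_1,x_2) F_2(x_2,x_0) ∏_v h_{I_v}(x_v) dx`. -/
noncomputable def LI (k : ℤ) (n : ℕ × ℕ × ℕ) (F : Fin 3 → ℝ × ℝ → ℝ) : ℝ :=
  (2 : ℝ) ^ (-k) *
    ∫ x : ℝ × ℝ × ℝ in dyadicI k n.1 ×ˢ (dyadicI k n.2.1 ×ˢ dyadicI k n.2.2),
      F 0 (x.1, x.2.1) * F 1 (x.2.1, x.2.2) * F 2 (x.2.2, x.1) *
        (haar k n.1 x.1 * haar k n.2.1 x.2.1 * haar k n.2.2 x.2.2)

/-- Index triples of `𝒜_k`: `n_0 ⊕ n_1 ⊕ n_2 = 0` (bitwise XOR). -/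
def XorTriple : Type := {n : ℕ × ℕ × ℕ // (n.1 ^^^ n.2.1) ^^^ n.2.2 = 0}

/-- The dyadic form `Λ^d_{S,ε}(F_0,F_1,F_2) = ∑_{k∈S} ε_k ∑_{I∈𝒜_k} L_I(F_0,F_1,F_2)`. -/
noncomputable def Lam (S : Finset ℤ) (ε : ℤ → ℝ) (F : Fin 3 → ℝ × ℝ → ℝ) : ℝ :=
  ∑ k ∈ S, ε k * ∑' n : XorTriple, LI k n.1 F

/-- The norm of `L^3([0,∞)^2)`. -/
noncomputable def norm3 (F : ℝ × ℝ → ℝ) : ℝ :=
  (∫ x in Set.Ici (0 : ℝ) ×ˢ Set.Ici (0 : ℝ), |F x| ^ 3) ^ (1 / 3 : ℝ)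

end P075
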