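import Vale.Agent.P075.Pot

/-!
# P075: elementary facts on real positive semidefinite matrices
-/

namespace P075

open Matrix

section basic

variable {n : Type} [Fintype n] [DecidableEq n]

/-- squared Hilbert-Schmidt norm -/
def hs (M : Matrix n n ℝ) : ℝ := (M * Mᵀ).trace

omit [DecidableEq n] in
theorem hs_eq_sum (M : Matrix n n ℝ) : hs M = ∑ i, ∑ j, M i j ^ 2 := by
  simp [hs, Matrix.trace, Matrix.mul_apply, sq]

omit [DecidableEq n] in
theorem hs_nonneg (M : Matrix n n ℝ) : 0 ≤ hs M := by
  rw [hs_eq_sum]; positivity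

omit [DecidableEq n] in
theorem hs_transpose (M : Matrix n n ℝ) : hs Mᵀ = hs M := by
  rw [hs, hs, Matrix.transpose_transpose, Matrix.trace_mul_comm]

omit [DecidableEq n] in
theorem hs_smul (c : ℝ) (M : Matrix n n ℝ) : hs (c • M) = c ^ 2 * hs M := by
  simp [hs, Matrix.transpose_smul, Matrix.trace_smul, smul_smul, sq, mul_assoc]

omit [DecidableEq n] in
/-- Cauchy-Schwarz in additive form. -/
theorem abs_trace_mul_le (A B : Matrix n n ℝ) : |(A * B).trace| ≤ (hs A + hs B) / 2 := by
  have h1 := hs_nonneg (A - Bᵀ)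
  have h2 := hs_nonneg (A + Bᵀ)
  have e1 : hs (A - Bᵀ) = hs A + hs B - 2 * (A * B).trace := by
    simp only [hs, Matrix.transpose_sub, Matrix.transpose_transpose, Matrix.sub_mul,
      Matrix.mul_sub, Matrix.trace_sub]
    have : (Bᵀ * Aᵀ).trace = (A * B).trace := by
      rw [← Matrix.transpose_mul, Matrix.trace_transpose]
    have h' : (Bᵀ * B).trace = (B * Bᵀ).trace := Matrix.trace_mul_comm _ _
    rw [this, h']; ring
  have e2 : hs (A + Bᵀ) = hs A + hs B + 2 * (A * B).trace := by
    simp only [hs, Matrix.transpose_add, Matrix.transpose_transpose, Matrix.add_mul,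
      Matrix.mul_add, Matrix.trace_add]
    have : (Bᵀ * Aᵀ).trace = (A * B).trace := by
      rw [← Matrix.transpose_mul, Matrix.trace_transpose]
    have h' : (Bᵀ * B).trace = (B * Bᵀ).trace := Matrix.trace_mul_comm _ _
    rw [this, h']; ring
  rw [abs_le]; constructor <;> linarith

omit [DecidableEq n] in
theorem ps_congr {A : Matrix n n ℝ} (hA : A.PosSemidef) (B : Matrix n n ℝ) :
    (B * A * Bᵀ).PosSemidef := by
  have := hA.mul_mul_conjTranspose_same B
  rwa [Matrix.conjTranspose_eq_transpose_of_trivial] at this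

omit [DecidableEq n] in
theorem ps_self (B : Matrix n n ℝ) : (B * Bᵀ).PosSemidef := by
  have := Matrix.posSemidef_self_mul_conjTranspose B
  rwa [Matrix.conjTranspose_eq_transpose_of_trivial] at this

omit [DecidableEq n] in
theorem ps_self' (B : Matrix n n ℝ) : (Bᵀ * B).PosSemidef := by
  have := ps_self Bᵀ
  rwa [Matrix.transpose_transpose] at this

omit [DecidableEq n] in
theorem ps_symm {A : Matrix n n ℝ} (hA : A.PosSemidef) : Aᵀ = A := by
  have := hA.isHermitian.eq
  rwa [Matrix.conjTranspose_eq_transpose_of_trivial] at this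

omit [DecidableEq n] in
/-- the trace of a product of two positive semidefinite matrices is nonnegative -/
theorem trace_mul_nonneg {A B : Matrix n n ℝ} (hA : A.PosSemidef) (hB : B.PosSemidef) :
    0 ≤ (A * B).trace := by
  obtain ⟨m, v, hv⟩ := Matrix.posSemidef_iff_eq_sum_vecMulVec.mp hA
  rw [hv, Finset.sum_mul, Matrix.trace_sum]
  refine Finset.sum_nonneg fun i _ => ?_
  have h := hB.dotProduct_mulVec_nonneg (v i)
  have e : (vecMulVec (v i) (star (v i)) * B).trace = star (v i) ⬝ᵥ (B *ᵥ (v i)) := by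
    rw [Matrix.trace_mul_comm, Matrix.mul_vecMulVec, Matrix.trace_vecMulVec, dotProduct_comm]
  rw [e]; exact h

end basic

end P075
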