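import Vale.Agent.P075.Defs

/-!
# P075 lemma package M (measure theory): from the discrete bound to the continuous one.
-/

namespace P075

open MeasureTheory Set

/-! ### Cells -/

/-- The `i`-th cell of length `δ`. -/
def cell (δ : ℝ) (i : ℕ) : Set ℝ := Set.Ico (δ * i) (δ * (i + 1))

theorem cell_meas (δ : ℝ) (i : ℕ) : MeasurableSet (cell δ i) := measurableSet_Ico

theorem mem_cell {δ : ℝ} (hδ : 0 < δ) {i : ℕ} {x : ℝ} : x ∈ cell δ i ↔ ⌊x / δ⌋ = (i : ℤ) := by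
  unfold cell
  rw [Int.floor_eq_iff, Set.mem_Ico, le_div_iff₀ hδ, div_lt_iff₀ hδ]
  push_cast
  rw [mul_comm δ, mul_comm δ]

theorem sum_cells {δ : ℝ} (hδ : 0 < δ) (a K : ℕ) (c : ℕ → ℝ) (x : ℝ) :
    ∑ i ∈ Finset.range K, c i * (cell δ (a + i)).indicator (fun _ => (1 : ℝ)) x =
      if (a : ℤ) ≤ ⌊x / δ⌋ ∧ ⌊x / δ⌋ < a + K then c (⌊x / δ⌋ - a).toNat else 0 := by
  have h1 : ∀ i ∈ Finset.range K, c i * (cell δ (a + i)).indicator (fun _ => (1 : ℝ)) x =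
      if ⌊x / δ⌋ = ((a + i : ℕ) : ℤ) then c i else 0 := by
    intro i _
    by_cases h : ⌊x / δ⌋ = ((a + i : ℕ) : ℤ)
    · rw [if_pos h, Set.indicator_of_mem ((mem_cell hδ).mpr h), mul_one]
    · rw [if_neg h, Set.indicator_of_notMem (fun h2 => h ((mem_cell hδ).mp h2)), mul_zero]
  rw [Finset.sum_congr rfl h1]
  split_ifs with h
  · rw [Finset.sum_eq_single (⌊x / δ⌋ - a).toNat]
    · rw [if_pos]; push_cast; omega
    · intro i _ hi
      rw [if_neg]; push_cast; omega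
    · intro hi
      exact absurd (Finset.mem_range.mpr (by omega)) hi
  · refine Finset.sum_eq_zero fun i hi => ?_
    rw [Finset.mem_range] at hi
    rw [if_neg]; push_cast; omega

theorem haar_cells {k kmin : ℤ} {r : ℕ} (hk : k = kmin + (r + 1)) (n : ℕ) (x : ℝ) :
    haar k n x = ∑ i ∈ Finset.range (2 ^ (r + 1)), sg r i *
      (cell ((2 : ℝ) ^ kmin) (2 ^ (r + 1) * n + i)).indicator (fun _ => (1 : ℝ)) x := by
  have hδ : (0 : ℝ) < (2 : ℝ) ^ kmin := by positivity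
  rw [sum_cells hδ]
  have h2 : (2 : ℝ) ^ k = (2 : ℝ) ^ kmin * 2 ^ (r + 1) := by
    rw [hk, zpow_add₀ (by norm_num)]
    congr 1
  have key : ∀ (c : ℕ), (2 : ℝ) ^ kmin * c ≤ x ↔ (c : ℤ) ≤ ⌊x / (2 : ℝ) ^ kmin⌋ := by
    intro c
    rw [Int.le_floor, le_div_iff₀ hδ, mul_comm]
    push_cast
    rfl
  have key' : ∀ (c : ℕ), x < (2 : ℝ) ^ kmin * c ↔ ⌊x / (2 : ℝ) ^ kmin⌋ < (c : ℤ) := by
    intro c
    rw [← not_le, key, not_le]
  have e1 : (2 : ℝ) ^ k * n = (2 : ℝ) ^ kmin * ((2 ^ (r + 1) * n : ℕ) : ℝ) := by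
    rw [h2]; push_cast; ring
  have e2 : (2 : ℝ) ^ k * (n + 1 / 2) =
      (2 : ℝ) ^ kmin * ((2 ^ (r + 1) * n + 2 ^ r : ℕ) : ℝ) := by
    rw [h2]; push_cast; ring
  have e3 : (2 : ℝ) ^ k * (n + 1) =
      (2 : ℝ) ^ kmin * ((2 ^ (r + 1) * n + 2 ^ (r + 1) : ℕ) : ℝ) := by
    rw [h2]; push_cast; ring
  have hpow : 2 ^ (r + 1) = 2 ^ r + 2 ^ r := by rw [pow_succ]; ring
  have hpos : 0 < 2 ^ r := by positivity
  have hL : x ∈ leftHalf k n ↔ ((2 ^ (r + 1) * n : ℕ) : ℤ) ≤ ⌊x / (2 : ℝ) ^ kmin⌋ ∧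
      ⌊x / (2 : ℝ) ^ kmin⌋ < ((2 ^ (r + 1) * n + 2 ^ r : ℕ) : ℤ) := by
    unfold leftHalf
    rw [Set.mem_Ico, e1, e2, key, key']
  have hR : x ∈ rightHalf k n ↔ ((2 ^ (r + 1) * n + 2 ^ r : ℕ) : ℤ) ≤ ⌊x / (2 : ℝ) ^ kmin⌋ ∧
      ⌊x / (2 : ℝ) ^ kmin⌋ < ((2 ^ (r + 1) * n + 2 ^ (r + 1) : ℕ) : ℤ) := by
    unfold rightHalf
    rw [Set.mem_Ico, e2, e3, key, key']
  unfold haar
  set q := ⌊x / (2 : ℝ) ^ kmin⌋
  generalize hA : 2 ^ (r + 1) * n = A at *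
  by_cases hl : x ∈ leftHalf k n
  · have hl' := hL.mp hl
    have hr : x ∉ rightHalf k n := fun h => by
      have := hR.mp h; omega
    rw [Set.indicator_of_mem hl, Set.indicator_of_notMem hr, sub_zero, if_pos]
    · unfold sg
      rw [if_pos]
      zify
      rw [Int.toNat_of_nonneg (by omega)]
      push_cast at hl' ⊢
      omega
    · push_cast at hl' ⊢
      have : (2 : ℤ) ^ (r + 1) = 2 ^ r + 2 ^ r := by exact_mod_cast hpow
      have h0 : (0 : ℤ) < 2 ^ r := by exact_mod_cast hpos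
      omega
  · by_cases hr : x ∈ rightHalf k n
    · have hr' := hR.mp hr
      rw [Set.indicator_of_notMem hl, Set.indicator_of_mem hr, zero_sub, if_pos]
      · unfold sg
        rw [if_neg]
        rw [not_lt]
        zify
        rw [Int.toNat_of_nonneg (by push_cast at hr'; have h0 : (0 : ℤ) < 2 ^ r := by exact_mod_cast hpos
                                    omega)]
        push_cast at hr' ⊢
        omega
      · push_cast at hr' ⊢
        have h0 : (0 : ℤ) < 2 ^ r := by exact_mod_cast hpos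
        omega
    · rw [Set.indicator_of_notMem hl, Set.indicator_of_notMem hr, sub_zero, if_neg]
      intro h
      rw [hL] at hl
      rw [hR] at hr
      push_cast at hl hr h
      omega

theorem haar_zero {k : ℤ} {n : ℕ} {x : ℝ} (hx : x ∉ dyadicI k n) : haar k n x = 0 := by
  have hpos : (0 : ℝ) < (2 : ℝ) ^ k := by positivity
  unfold haar
  rw [Set.indicator_of_notMem, Set.indicator_of_notMem, sub_zero]
  · intro h
    refine hx ⟨?_, h.2⟩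
    refine le_trans ?_ h.1
    nlinarith
  · intro h
    refine hx ⟨h.1, ?_⟩
    refine lt_of_lt_of_le h.2 ?_
    nlinarith

/-! ### Translation of cells -/

theorem trans2 (δ : ℝ) (i j : ℕ) (g : ℝ × ℝ → ℝ) :
    ∫ x in cell δ i ×ˢ cell δ j, g x =
      ∫ u in Ico 0 δ ×ˢ Ico 0 δ, g (δ * i + u.1, δ * j + u.2) := by
  have h1 := (measurePreserving_add_left (volume : Measure (ℝ × ℝ))
    (δ * i, δ * j)).setIntegral_preimage_emb
    (MeasurableEquiv.addLeft ((δ * i, δ * j) : ℝ × ℝ)).measurableEmbedding g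
    (cell δ i ×ˢ cell δ j)
  rw [← h1]
  have h2 : (fun x : ℝ × ℝ => (δ * i, δ * j) + x) ⁻¹' (cell δ i ×ˢ cell δ j) =
      Ico 0 δ ×ˢ Ico 0 δ := by
    ext ⟨a, b⟩
    simp only [Set.mem_preimage, Set.mem_prod, cell, Set.mem_Ico, Prod.mk_add_mk]
    constructor
    · rintro ⟨⟨h1, h2⟩, h3, h4⟩
      exact ⟨⟨by linarith, by linarith⟩, by linarith, by linarith⟩
    · rintro ⟨⟨h1, h2⟩, h3, h4⟩
      exact ⟨⟨by linarith, by linarith⟩, by linarith, by linarith⟩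
  rw [h2]
  rfl

theorem trans3 (δ : ℝ) (i j l : ℕ) (g : ℝ × ℝ × ℝ → ℝ) :
    ∫ x in cell δ i ×ˢ (cell δ j ×ˢ cell δ l), g x =
      ∫ u in Ico 0 δ ×ˢ (Ico 0 δ ×ˢ Ico 0 δ), g (δ * i + u.1, δ * j + u.2.1, δ * l + u.2.2) := by
  have : (volume : Measure (ℝ × ℝ × ℝ)).IsAddLeftInvariant := by
    rw [Measure.volume_eq_prod]; infer_instance
  have h1 := (measurePreserving_add_left (volume : Measure (ℝ × ℝ × ℝ))
    (δ * i, δ * j, δ * l)).setIntegral_preimage_emb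
    (MeasurableEquiv.addLeft ((δ * i, δ * j, δ * l) : ℝ × ℝ × ℝ)).measurableEmbedding g
    (cell δ i ×ˢ (cell δ j ×ˢ cell δ l))
  rw [← h1]
  have h2 : (fun x : ℝ × ℝ × ℝ => (δ * i, δ * j, δ * l) + x) ⁻¹'
      (cell δ i ×ˢ (cell δ j ×ˢ cell δ l)) = Ico 0 δ ×ˢ (Ico 0 δ ×ˢ Ico 0 δ) := by
    ext ⟨a, b, c⟩
    simp only [Set.mem_preimage, Set.mem_prod, cell, Set.mem_Ico, Prod.mk_add_mk]
    constructor
    · rintro ⟨⟨h1, h2⟩, ⟨h3, h4⟩, h5, h6⟩
      exact ⟨⟨by linarith, by linarith⟩, ⟨by linarith, by linarith⟩, by linarith, by linarith⟩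
    · rintro ⟨⟨h1, h2⟩, ⟨h3, h4⟩, h5, h6⟩
      exact ⟨⟨by linarith, by linarith⟩, ⟨by linarith, by linarith⟩, by linarith, by linarith⟩
  rw [h2]
  rfl

/-! ### The block integral as an average of discrete block forms -/

/-- The integrand. -/
def PF (F : Fin 3 → ℝ × ℝ → ℝ) (x : ℝ × ℝ × ℝ) : ℝ :=
  F 0 (x.1, x.2.1) * F 1 (x.2.1, x.2.2) * F 2 (x.2.2, x.1)

theorem PF_meas {F : Fin 3 → ℝ × ℝ → ℝ} (hF : ∀ v, Measurable (F v)) : Measurable (PF F) := by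
  unfold PF
  have h0 := hF 0
  have h1 := hF 1
  have h2 := hF 2
  fun_prop

theorem PF_bound {F : Fin 3 → ℝ × ℝ → ℝ} {M : ℝ} (hM : ∀ v x, |F v x| ≤ M) (x : ℝ × ℝ × ℝ) :
    ‖PF F x‖ ≤ M * M * M := by
  have hM0 : 0 ≤ M := (abs_nonneg _).trans (hM 0 (0, 0))
  unfold PF
  rw [Real.norm_eq_abs, abs_mul, abs_mul]
  exact mul_le_mul (mul_le_mul (hM _ _) (hM _ _) (abs_nonneg _) hM0) (hM _ _) (abs_nonneg _)
    (mul_nonneg hM0 hM0)

theorem cell_fin (δ : ℝ) (i : ℕ) : volume (cell δ i) ≠ ⊤ := by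
  unfold cell; rw [Real.volume_Ico]; exact ENNReal.ofReal_ne_top

theorem box3_fin {A B C : Set ℝ} (hA : volume A ≠ ⊤) (hB : volume B ≠ ⊤) (hC : volume C ≠ ⊤) :
    volume (A ×ˢ (B ×ˢ C)) < ⊤ := by
  rw [Measure.volume_eq_prod, Measure.prod_prod, Measure.volume_eq_prod, Measure.prod_prod]
  exact ENNReal.mul_lt_top hA.lt_top (ENNReal.mul_lt_top hB.lt_top hC.lt_top)

theorem box2_fin {A B : Set ℝ} (hA : volume A ≠ ⊤) (hB : volume B ≠ ⊤) :
    volume (A ×ˢ B) < ⊤ := by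
  rw [Measure.volume_eq_prod, Measure.prod_prod]
  exact ENNReal.mul_lt_top hA.lt_top hB.lt_top

theorem bdd_int {X : Type*} [MeasurableSpace X] {μ : Measure X} {s : Set X} (hs : μ s < ⊤)
    {g : X → ℝ} (hg : Measurable g) {M : ℝ} (hM : ∀ x, ‖g x‖ ≤ M) : IntegrableOn g s μ := by
  have : IsFiniteMeasure (μ.restrict s) := ⟨by rwa [Measure.restrict_apply_univ]⟩
  exact Integrable.of_bound hg.aestronglyMeasurable M (Filter.Eventually.of_forall hM)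

/-- The discrete functions obtained by sampling. -/
noncomputable def samp (G : ℝ × ℝ → ℝ) (δ a b : ℝ) (i j : ℕ) : ℝ := G (δ * i + a, δ * j + b)

theorem LI_cells {k kmin : ℤ} {r : ℕ} (hk : k = kmin + (r + 1)) (n : ℕ × ℕ × ℕ)
    {F : Fin 3 → ℝ × ℝ → ℝ} (hF : ∀ v, Measurable (F v)) {M : ℝ} (hM : ∀ v x, |F v x| ≤ M) :
    LI k n F = (2 : ℝ) ^ (-k) * ∫ u in Ico (0 : ℝ) ((2 : ℝ) ^ kmin) ×ˢ
      (Ico (0 : ℝ) ((2 : ℝ) ^ kmin) ×ˢ Ico (0 : ℝ) ((2 : ℝ) ^ kmin)),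
      Tb (samp (F 0) ((2 : ℝ) ^ kmin) u.1 u.2.1) (samp (F 1) ((2 : ℝ) ^ kmin) u.2.1 u.2.2)
        (samp (F 2) ((2 : ℝ) ^ kmin) u.2.2 u.1) r n.1 n.2.1 n.2.2 := by
  obtain ⟨n0, n1, n2⟩ := n
  unfold LI
  congr 1
  set δ : ℝ := (2 : ℝ) ^ kmin with hδ
  have hδ0 : 0 < δ := by rw [hδ]; positivity
  set K := 2 ^ (r + 1) with hK
  -- the integral over the whole space
  have e1 : ∫ x : ℝ × ℝ × ℝ in dyadicI k n0 ×ˢ (dyadicI k n1 ×ˢ dyadicI k n2),
      F 0 (x.1, x.2.1) * F 1 (x.2.1, x.2.2) * F 2 (x.2.2, x.1) *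
        (haar k n0 x.1 * haar k n1 x.2.1 * haar k n2 x.2.2) =
      ∫ x : ℝ × ℝ × ℝ, F 0 (x.1, x.2.1) * F 1 (x.2.1, x.2.2) * F 2 (x.2.2, x.1) *
        (haar k n0 x.1 * haar k n1 x.2.1 * haar k n2 x.2.2) := by
    refine setIntegral_eq_integral_of_forall_compl_eq_zero fun x hx => ?_
    by_cases h0 : x.1 ∈ dyadicI k n0
    · by_cases h1 : x.2.1 ∈ dyadicI k n1
      · have h2 : x.2.2 ∉ dyadicI k n2 := fun h2 => hx ⟨h0, h1, h2⟩
        rw [haar_zero h2]; ring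
      · rw [haar_zero h1]; ring
    · rw [haar_zero h0]; ring
  rw [e1]
  have e2 : ∀ x : ℝ × ℝ × ℝ, F 0 (x.1, x.2.1) * F 1 (x.2.1, x.2.2) * F 2 (x.2.2, x.1) *
        (haar k n0 x.1 * haar k n1 x.2.1 * haar k n2 x.2.2) =
      ∑ i ∈ Finset.range K, ∑ j ∈ Finset.range K, ∑ l ∈ Finset.range K,
        sg r i * sg r j * sg r l * (cell δ (K * n0 + i) ×ˢ (cell δ (K * n1 + j) ×ˢ
          cell δ (K * n2 + l))).indicator (PF F) x := by
    intro x
    rw [haar_cells hk n0, haar_cells hk n1, haar_cells hk n2, Finset.sum_mul_sum,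
      Finset.sum_mul, Finset.mul_sum]
    refine Finset.sum_congr rfl fun i _ => ?_
    rw [Finset.sum_mul_sum, Finset.mul_sum]
    refine Finset.sum_congr rfl fun j _ => ?_
    rw [Finset.mul_sum]
    refine Finset.sum_congr rfl fun l _ => ?_
    rw [← hδ, ← hK]
    by_cases h0 : x.1 ∈ cell δ (K * n0 + i)
    · by_cases h1 : x.2.1 ∈ cell δ (K * n1 + j)
      · by_cases h2 : x.2.2 ∈ cell δ (K * n2 + l)
        · rw [Set.indicator_of_mem h0, Set.indicator_of_mem h1, Set.indicator_of_mem h2,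
            Set.indicator_of_mem (show x ∈ _ ×ˢ (_ ×ˢ _) from ⟨h0, h1, h2⟩)]
          unfold PF
          ring
        · have hq : x ∉ cell δ (K * n0 + i) ×ˢ (cell δ (K * n1 + j) ×ˢ cell δ (K * n2 + l)) :=
            fun h => h2 h.2.2
          rw [Set.indicator_of_notMem h2, Set.indicator_of_notMem hq]
          ring
      · have hq : x ∉ cell δ (K * n0 + i) ×ˢ (cell δ (K * n1 + j) ×ˢ cell δ (K * n2 + l)) :=
          fun h => h1 h.2.1
        rw [Set.indicator_of_notMem h1, Set.indicator_of_notMem hq]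
        ring
    · have hq : x ∉ cell δ (K * n0 + i) ×ˢ (cell δ (K * n1 + j) ×ˢ cell δ (K * n2 + l)) :=
        fun h => h0 h.1
      rw [Set.indicator_of_notMem h0, Set.indicator_of_notMem hq]
      ring
  have hI : ∀ i j l : ℕ, Integrable fun x => sg r i * sg r j * sg r l *
      (cell δ (K * n0 + i) ×ˢ (cell δ (K * n1 + j) ×ˢ
        cell δ (K * n2 + l))).indicator (PF F) x := by
    intro i j l
    refine Integrable.const_mul ?_ _
    rw [integrable_indicator_iff ((cell_meas _ _).prod ((cell_meas _ _).prod (cell_meas _ _)))]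
    exact bdd_int (box3_fin (cell_fin _ _) (cell_fin _ _) (cell_fin _ _)) (PF_meas hF)
      (PF_bound hM)
  have hU : ∀ i j l : ℕ, IntegrableOn (fun u : ℝ × ℝ × ℝ => PF F (δ * i + u.1, δ * j + u.2.1,
      δ * l + u.2.2)) (Ico (0 : ℝ) δ ×ˢ (Ico (0 : ℝ) δ ×ˢ Ico (0 : ℝ) δ)) := by
    intro i j l
    have hf : volume (Ico (0 : ℝ) δ) ≠ ⊤ := by rw [Real.volume_Ico]; exact ENNReal.ofReal_ne_top
    refine bdd_int (box3_fin hf hf hf) ?_ fun x => PF_bound hM _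
    have := PF_meas hF
    fun_prop
  calc ∫ x : ℝ × ℝ × ℝ, F 0 (x.1, x.2.1) * F 1 (x.2.1, x.2.2) * F 2 (x.2.2, x.1) *
        (haar k n0 x.1 * haar k n1 x.2.1 * haar k n2 x.2.2)
      = ∫ x : ℝ × ℝ × ℝ, ∑ i ∈ Finset.range K, ∑ j ∈ Finset.range K, ∑ l ∈ Finset.range K,
        sg r i * sg r j * sg r l * (cell δ (K * n0 + i) ×ˢ (cell δ (K * n1 + j) ×ˢ
          cell δ (K * n2 + l))).indicator (PF F) x := by
        exact integral_congr_ae (Filter.Eventually.of_forall e2)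
    _ = ∑ i ∈ Finset.range K, ∑ j ∈ Finset.range K, ∑ l ∈ Finset.range K,
        sg r i * sg r j * sg r l * ∫ u in Ico (0 : ℝ) δ ×ˢ (Ico (0 : ℝ) δ ×ˢ Ico (0 : ℝ) δ),
          PF F (δ * (K * n0 + i : ℕ) + u.1, δ * (K * n1 + j : ℕ) + u.2.1,
            δ * (K * n2 + l : ℕ) + u.2.2) := by
        rw [integral_finsetSum _ fun i _ => integrable_finsetSum _ fun j _ =>
          integrable_finsetSum _ fun l _ => hI i j l]
        refine Finset.sum_congr rfl fun i _ => ?_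
        rw [integral_finsetSum _ fun j _ => integrable_finsetSum _ fun l _ => hI i j l]
        refine Finset.sum_congr rfl fun j _ => ?_
        rw [integral_finsetSum _ fun l _ => hI i j l]
        refine Finset.sum_congr rfl fun l _ => ?_
        rw [integral_const_mul, integral_indicator ((cell_meas _ _).prod
          ((cell_meas _ _).prod (cell_meas _ _))), trans3]
    _ = ∫ u in Ico (0 : ℝ) δ ×ˢ (Ico (0 : ℝ) δ ×ˢ Ico (0 : ℝ) δ),
        ∑ i ∈ Finset.range K, ∑ j ∈ Finset.range K, ∑ l ∈ Finset.range K,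
        sg r i * sg r j * sg r l *
          PF F (δ * (K * n0 + i : ℕ) + u.1, δ * (K * n1 + j : ℕ) + u.2.1,
            δ * (K * n2 + l : ℕ) + u.2.2) := by
        rw [integral_finsetSum _ fun i _ => integrable_finsetSum _ fun j _ =>
          integrable_finsetSum _ fun l _ =>
            (hU (K * n0 + i) (K * n1 + j) (K * n2 + l)).const_mul (sg r i * sg r j * sg r l)]
        refine Finset.sum_congr rfl fun i _ => ?_
        rw [integral_finsetSum _ fun j _ =>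
          integrable_finsetSum _ fun l _ =>
            (hU (K * n0 + i) (K * n1 + j) (K * n2 + l)).const_mul (sg r i * sg r j * sg r l)]
        refine Finset.sum_congr rfl fun j _ => ?_
        rw [integral_finsetSum _ fun l _ =>
            (hU (K * n0 + i) (K * n1 + j) (K * n2 + l)).const_mul (sg r i * sg r j * sg r l)]
        refine Finset.sum_congr rfl fun l _ => ?_
        rw [← integral_const_mul]
    _ = _ := rfl

/-! ### Averages over the offsets -/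

theorem ico_fin (δ : ℝ) : volume (Ico (0 : ℝ) δ) ≠ ⊤ := by
  rw [Real.volume_Ico]; exact ENNReal.ofReal_ne_top

theorem avg {δ : ℝ} (hδ : 0 ≤ δ) {φ : ℝ × ℝ → ℝ} (hφ : Measurable φ) {M : ℝ}
    (hM : ∀ x, ‖φ x‖ ≤ M) :
    (∫ u : ℝ × ℝ × ℝ in Ico (0 : ℝ) δ ×ˢ (Ico (0 : ℝ) δ ×ˢ Ico (0 : ℝ) δ), φ (u.1, u.2.1) =
      δ * ∫ x in Ico (0 : ℝ) δ ×ˢ Ico (0 : ℝ) δ, φ x) ∧
    (∫ u : ℝ × ℝ × ℝ in Ico (0 : ℝ) δ ×ˢ (Ico (0 : ℝ) δ ×ˢ Ico (0 : ℝ) δ), φ (u.2.1, u.2.2) =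
      δ * ∫ x in Ico (0 : ℝ) δ ×ˢ Ico (0 : ℝ) δ, φ x) ∧
    (∫ u : ℝ × ℝ × ℝ in Ico (0 : ℝ) δ ×ˢ (Ico (0 : ℝ) δ ×ˢ Ico (0 : ℝ) δ), φ (u.2.2, u.1) =
      δ * ∫ x in Ico (0 : ℝ) δ ×ˢ Ico (0 : ℝ) δ, φ x) := by
  set μ : Measure ℝ := volume.restrict (Ico (0 : ℝ) δ) with hμ
  have : IsFiniteMeasure μ := ⟨by rw [hμ, Measure.restrict_apply_univ]; exact (ico_fin δ).lt_top⟩
  have hreal : μ.real univ = δ := by
    rw [hμ, Measure.real, Measure.restrict_apply_univ, Real.volume_Ico, sub_zero,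
      ENNReal.toReal_ofReal hδ]
  have h2 : (volume : Measure (ℝ × ℝ)).restrict (Ico (0 : ℝ) δ ×ˢ Ico (0 : ℝ) δ) = μ.prod μ := by
    rw [Measure.volume_eq_prod, hμ, Measure.prod_restrict]
  have h3 : (volume : Measure (ℝ × ℝ × ℝ)).restrict
      (Ico (0 : ℝ) δ ×ˢ (Ico (0 : ℝ) δ ×ˢ Ico (0 : ℝ) δ)) = μ.prod (μ.prod μ) := by
    rw [Measure.volume_eq_prod, ← Measure.prod_restrict, h2]
  rw [h2, h3]
  have i2 : Integrable φ (μ.prod μ) := Integrable.of_bound hφ.aestronglyMeasurable M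
    (Filter.Eventually.of_forall hM)
  refine ⟨?_, ?_, ?_⟩
  · rw [integral_prod (fun u : ℝ × ℝ × ℝ => φ (u.1, u.2.1)) (Integrable.of_bound
      (hφ.comp (show Measurable fun u : ℝ × ℝ × ℝ => (u.1, u.2.1) by
        fun_prop)).aestronglyMeasurable M (Filter.Eventually.of_forall fun x => hM _)),
      integral_prod φ i2,
      ← integral_const_mul]
    refine integral_congr_ae (Filter.Eventually.of_forall fun a => ?_)
    have := integral_fun_fst (μ := μ) (ν := μ) (fun b => φ (a, b))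
    rw [hreal] at this
    exact this
  · have := integral_fun_snd (μ := μ) (ν := μ.prod μ) (fun w : ℝ × ℝ => φ (w.1, w.2))
    rw [hreal] at this
    exact this
  · rw [integral_prod (fun u : ℝ × ℝ × ℝ => φ (u.2.2, u.1)) (Integrable.of_bound
      (hφ.comp (show Measurable fun u : ℝ × ℝ × ℝ => (u.2.2, u.1) by
        fun_prop)).aestronglyMeasurable M (Filter.Eventually.of_forall fun x => hM _)),
      integral_prod_symm φ i2,
      ← integral_const_mul]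
    refine integral_congr_ae (Filter.Eventually.of_forall fun a => ?_)
    have := integral_fun_snd (μ := μ) (ν := μ) (fun b => φ (b, a))
    rw [hreal] at this
    exact this

theorem cells_le {δ : ℝ} (hδ : 0 < δ) (K : ℕ) {g : ℝ × ℝ → ℝ} (hg : ∀ x, 0 ≤ g x)
    (hi : IntegrableOn g (Ici (0 : ℝ) ×ˢ Ici (0 : ℝ))) :
    ∑ i ∈ Finset.range K, ∑ j ∈ Finset.range K, ∫ x in cell δ i ×ˢ cell δ j, g x ≤
      ∫ x in Ici (0 : ℝ) ×ˢ Ici (0 : ℝ), g x := by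
  have hsub : ∀ i, cell δ i ⊆ Ici 0 := fun i x hx => le_trans (by positivity) hx.1
  have hI : ∀ i j, Integrable ((cell δ i ×ˢ cell δ j).indicator g) := fun i j => by
    rw [integrable_indicator_iff ((cell_meas _ _).prod (cell_meas _ _))]
    exact hi.mono_set (Set.prod_mono (hsub i) (hsub j))
  have e1 : ∑ i ∈ Finset.range K, ∑ j ∈ Finset.range K, ∫ x in cell δ i ×ˢ cell δ j, g x =
      ∫ x, ∑ i ∈ Finset.range K, ∑ j ∈ Finset.range K, (cell δ i ×ˢ cell δ j).indicator g x := by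
    rw [integral_finsetSum _ fun i _ => integrable_finsetSum _ fun j _ => hI i j]
    refine Finset.sum_congr rfl fun i _ => ?_
    rw [integral_finsetSum _ fun j _ => hI i j]
    refine Finset.sum_congr rfl fun j _ => ?_
    rw [integral_indicator ((cell_meas _ _).prod (cell_meas _ _))]
  rw [e1, ← integral_indicator (measurableSet_Ici.prod measurableSet_Ici)]
  refine integral_mono (integrable_finsetSum _ fun i _ => integrable_finsetSum _ fun j _ => hI i j)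
    ((integrable_indicator_iff (measurableSet_Ici.prod measurableSet_Ici)).mpr hi) fun x => ?_
  have key : ∀ y : ℝ, ∑ i ∈ Finset.range K, (cell δ i).indicator (fun _ => (1 : ℝ)) y ≤
      (Ici (0 : ℝ)).indicator (fun _ => (1 : ℝ)) y := by
    intro y
    have h1 := sum_cells hδ 0 K (fun _ => 1) y
    simp only [one_mul, zero_add] at h1
    rw [h1]
    split_ifs with h
    · rw [Set.indicator_of_mem]
      have h2 : (0 : ℤ) ≤ ⌊y / δ⌋ := by exact_mod_cast h.1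
      rw [Int.floor_nonneg] at h2
      have h3 := mul_nonneg h2 hδ.le
      rwa [div_mul_cancel₀ _ hδ.ne'] at h3
    · exact Set.indicator_nonneg (fun _ _ => zero_le_one) _
  have e2 : ∑ i ∈ Finset.range K, ∑ j ∈ Finset.range K, (cell δ i ×ˢ cell δ j).indicator g x =
      (∑ i ∈ Finset.range K, (cell δ i).indicator (fun _ => (1 : ℝ)) x.1) *
        (∑ j ∈ Finset.range K, (cell δ j).indicator (fun _ => (1 : ℝ)) x.2) * g x := by
    rw [Finset.sum_mul_sum, Finset.sum_mul]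
    refine Finset.sum_congr rfl fun i _ => ?_
    rw [Finset.sum_mul]
    refine Finset.sum_congr rfl fun j _ => ?_
    by_cases h0 : x.1 ∈ cell δ i
    · by_cases h1 : x.2 ∈ cell δ j
      · have hq : x ∈ cell δ i ×ˢ cell δ j := ⟨h0, h1⟩
        rw [Set.indicator_of_mem hq, Set.indicator_of_mem h0, Set.indicator_of_mem h1]; ring
      · have hq : x ∉ cell δ i ×ˢ cell δ j := fun h => h1 h.2
        rw [Set.indicator_of_notMem hq, Set.indicator_of_notMem h1]; ring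
    · have hq : x ∉ cell δ i ×ˢ cell δ j := fun h => h0 h.1
      rw [Set.indicator_of_notMem hq, Set.indicator_of_notMem h0]; ring
  have e3 : (Ici (0 : ℝ) ×ˢ Ici (0 : ℝ)).indicator g x =
      (Ici (0 : ℝ)).indicator (fun _ => (1 : ℝ)) x.1 *
        (Ici (0 : ℝ)).indicator (fun _ => (1 : ℝ)) x.2 * g x := by
    by_cases h0 : x.1 ∈ Ici (0 : ℝ)
    · by_cases h1 : x.2 ∈ Ici (0 : ℝ)
      · have hq : x ∈ Ici (0 : ℝ) ×ˢ Ici (0 : ℝ) := ⟨h0, h1⟩
        rw [Set.indicator_of_mem hq, Set.indicator_of_mem h0, Set.indicator_of_mem h1]; ring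
      · have hq : x ∉ Ici (0 : ℝ) ×ˢ Ici (0 : ℝ) := fun h => h1 h.2
        rw [Set.indicator_of_notMem hq, Set.indicator_of_notMem h1]; ring
    · have hq : x ∉ Ici (0 : ℝ) ×ˢ Ici (0 : ℝ) := fun h => h0 h.1
      rw [Set.indicator_of_notMem hq, Set.indicator_of_notMem h0]; ring
  rw [e2, e3]
  refine mul_le_mul_of_nonneg_right ?_ (hg x)
  exact mul_le_mul (key _) (key _)
    (Finset.sum_nonneg fun i _ => Set.indicator_nonneg (fun _ _ => zero_le_one) _)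
    (Set.indicator_nonneg (fun _ _ => zero_le_one) _)

theorem Tb_int (δ : ℝ) (r n0 n1 n2 : ℕ) {F : Fin 3 → ℝ × ℝ → ℝ} (hF : ∀ v, Measurable (F v))
    {M : ℝ} (hM : ∀ v x, |F v x| ≤ M) :
    IntegrableOn (fun u : ℝ × ℝ × ℝ => Tb (samp (F 0) δ u.1 u.2.1) (samp (F 1) δ u.2.1 u.2.2)
      (samp (F 2) δ u.2.2 u.1) r n0 n1 n2)
      (Ico (0 : ℝ) δ ×ˢ (Ico (0 : ℝ) δ ×ˢ Ico (0 : ℝ) δ)) := by
  have hU : ∀ i j l : ℕ, IntegrableOn (fun u : ℝ × ℝ × ℝ => PF F (δ * i + u.1, δ * j + u.2.1,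
      δ * l + u.2.2)) (Ico (0 : ℝ) δ ×ˢ (Ico (0 : ℝ) δ ×ˢ Ico (0 : ℝ) δ)) := by
    intro i j l
    refine bdd_int (box3_fin (ico_fin δ) (ico_fin δ) (ico_fin δ)) ?_ fun x => PF_bound hM _
    have := PF_meas hF
    fun_prop
  have h1 : (fun u : ℝ × ℝ × ℝ => Tb (samp (F 0) δ u.1 u.2.1) (samp (F 1) δ u.2.1 u.2.2)
      (samp (F 2) δ u.2.2 u.1) r n0 n1 n2) = fun u => ∑ i ∈ Finset.range (2 ^ (r + 1)),
      ∑ j ∈ Finset.range (2 ^ (r + 1)), ∑ l ∈ Finset.range (2 ^ (r + 1)),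
        sg r i * sg r j * sg r l *
          PF F (δ * (2 ^ (r + 1) * n0 + i : ℕ) + u.1, δ * (2 ^ (r + 1) * n1 + j : ℕ) + u.2.1,
            δ * (2 ^ (r + 1) * n2 + l : ℕ) + u.2.2) := rfl
  rw [h1]
  exact integrable_finsetSum _ fun i _ => integrable_finsetSum _ fun j _ =>
    integrable_finsetSum _ fun l _ => (hU _ _ _).const_mul _


/-- The `L³` mass on the quadrant. -/
noncomputable def NN (G : ℝ × ℝ → ℝ) : ℝ := ∫ x in Ici (0 : ℝ) ×ˢ Ici (0 : ℝ), |G x| ^ 3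

theorem samp_avg {δ : ℝ} (hδ : 0 < δ) (K : ℕ) {G : ℝ × ℝ → ℝ} (hG : Measurable G) {M : ℝ}
    (hM : ∀ x, |G x| ≤ M) (hN : IntegrableOn (fun x => |G x| ^ 3) (Ici (0 : ℝ) ×ˢ Ici (0 : ℝ)))
    {π : ℝ × ℝ × ℝ → ℝ × ℝ} (hπm : Measurable π)
    (hπ : ∀ φ : ℝ × ℝ → ℝ, Measurable φ → (∀ x, ‖φ x‖ ≤ M ^ 3) →
      ∫ u in Ico (0 : ℝ) δ ×ˢ (Ico (0 : ℝ) δ ×ˢ Ico (0 : ℝ) δ), φ (π u) =
        δ * ∫ x in Ico (0 : ℝ) δ ×ˢ Ico (0 : ℝ) δ, φ x) :
    IntegrableOn (fun u => ∑ i ∈ Finset.range K, ∑ j ∈ Finset.range K,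
      |samp G δ (π u).1 (π u).2 i j| ^ 3) (Ico (0 : ℝ) δ ×ˢ (Ico (0 : ℝ) δ ×ˢ Ico (0 : ℝ) δ)) ∧
    ∫ u in Ico (0 : ℝ) δ ×ˢ (Ico (0 : ℝ) δ ×ˢ Ico (0 : ℝ) δ),
      ∑ i ∈ Finset.range K, ∑ j ∈ Finset.range K, |samp G δ (π u).1 (π u).2 i j| ^ 3 ≤
        δ * NN G := by
  have hb : ∀ x, ‖|G x| ^ 3‖ ≤ M ^ 3 := fun x => by
    rw [Real.norm_eq_abs, abs_of_nonneg (by positivity)]
    exact pow_le_pow_left₀ (abs_nonneg _) (hM x) 3
  have hm : ∀ i j : ℕ, Measurable fun x : ℝ × ℝ => |samp G δ x.1 x.2 i j| ^ 3 := by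
    intro i j
    unfold samp
    fun_prop
  have hI : ∀ i j : ℕ, IntegrableOn (fun u => |samp G δ (π u).1 (π u).2 i j| ^ 3)
      (Ico (0 : ℝ) δ ×ˢ (Ico (0 : ℝ) δ ×ˢ Ico (0 : ℝ) δ)) := fun i j =>
    bdd_int (box3_fin (ico_fin δ) (ico_fin δ) (ico_fin δ)) ((hm i j).comp hπm) (M := M ^ 3)
      fun x => hb _
  refine ⟨integrable_finsetSum _ fun i _ => integrable_finsetSum _ fun j _ => hI i j, ?_⟩
  rw [integral_finsetSum _ fun i _ => integrable_finsetSum _ fun j _ => hI i j]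
  have e1 : ∀ i j : ℕ, ∫ u in Ico (0 : ℝ) δ ×ˢ (Ico (0 : ℝ) δ ×ˢ Ico (0 : ℝ) δ),
      |samp G δ (π u).1 (π u).2 i j| ^ 3 = δ * ∫ x in cell δ i ×ˢ cell δ j, |G x| ^ 3 := by
    intro i j
    rw [hπ (fun x => |samp G δ x.1 x.2 i j| ^ 3) (hm i j) (fun x => hb _), trans2]
    rfl
  calc ∑ i ∈ Finset.range K, ∫ u in Ico (0 : ℝ) δ ×ˢ (Ico (0 : ℝ) δ ×ˢ Ico (0 : ℝ) δ),
        ∑ j ∈ Finset.range K, |samp G δ (π u).1 (π u).2 i j| ^ 3
      = ∑ i ∈ Finset.range K, ∑ j ∈ Finset.range K,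
          δ * ∫ x in cell δ i ×ˢ cell δ j, |G x| ^ 3 := by
        refine Finset.sum_congr rfl fun i _ => ?_
        rw [integral_finsetSum _ fun j _ => hI i j]
        exact Finset.sum_congr rfl fun j _ => e1 i j
    _ = δ * ∑ i ∈ Finset.range K, ∑ j ∈ Finset.range K,
          ∫ x in cell δ i ×ˢ cell δ j, |G x| ^ 3 := by
        simp_rw [Finset.mul_sum]
    _ ≤ δ * NN G := mul_le_mul_of_nonneg_left (cells_le hδ K (fun x => by positivity) hN) hδ.le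

theorem LI_le {kmin : ℤ} {r : ℕ} {k : ℤ} (hk : k = kmin + (r + 1)) (n : XorTriple)
    {F : Fin 3 → ℝ × ℝ → ℝ} (hF : ∀ v, Measurable (F v)) {M : ℝ} (hM : ∀ v x, |F v x| ≤ M) :
    |LI k n.1 F| ≤ ((2 : ℝ) ^ kmin)⁻¹ * ∫ u in Ico (0 : ℝ) ((2 : ℝ) ^ kmin) ×ˢ
      (Ico (0 : ℝ) ((2 : ℝ) ^ kmin) ×ˢ Ico (0 : ℝ) ((2 : ℝ) ^ kmin)),
      |Tb (samp (F 0) ((2 : ℝ) ^ kmin) u.1 u.2.1) (samp (F 1) ((2 : ℝ) ^ kmin) u.2.1 u.2.2)
        (samp (F 2) ((2 : ℝ) ^ kmin) u.2.2 u.1) r n.1.1 n.1.2.1 (n.1.1 ^^^ n.1.2.1)| /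
          2 ^ (r + 1) := by
  have h2 : n.1.2.2 = n.1.1 ^^^ n.1.2.1 := by
    have := n.2
    exact (Nat.xor_eq_zero_iff.mp this).symm
  rw [LI_cells hk n.1 hF hM, h2, abs_mul, abs_of_nonneg (by positivity : (0 : ℝ) ≤ 2 ^ (-k)),
    integral_div]
  have h3 : (2 : ℝ) ^ (-k) = ((2 : ℝ) ^ kmin)⁻¹ * (1 / 2 ^ (r + 1)) := by
    rw [zpow_neg, hk, zpow_add₀ (by norm_num), mul_inv, one_div]
    congr 1
  rw [h3, mul_assoc]
  refine mul_le_mul_of_nonneg_left ?_ (by positivity)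
  rw [one_div, inv_mul_eq_div]
  refine div_le_div_of_nonneg_right ?_ (by positivity)
  have := norm_integral_le_integral_norm (μ := (volume : Measure (ℝ × ℝ × ℝ)).restrict
    (Ico (0 : ℝ) ((2 : ℝ) ^ kmin) ×ˢ
      (Ico (0 : ℝ) ((2 : ℝ) ^ kmin) ×ˢ Ico (0 : ℝ) ((2 : ℝ) ^ kmin))))
    (fun u : ℝ × ℝ × ℝ => Tb (samp (F 0) ((2 : ℝ) ^ kmin) u.1 u.2.1)
      (samp (F 1) ((2 : ℝ) ^ kmin) u.2.1 u.2.2)
        (samp (F 2) ((2 : ℝ) ^ kmin) u.2.2 u.1) r n.1.1 n.1.2.1 (n.1.1 ^^^ n.1.2.1))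
  simpa only [Real.norm_eq_abs] using this

theorem fin_bound {C : ℝ} (hC : 0 ≤ C) (h : DiscBound C)
    {F : Fin 3 → ℝ × ℝ → ℝ} (hF : ∀ v, Measurable (F v)) {M : ℝ} (hM : ∀ v x, |F v x| ≤ M)
    (hN : ∀ v, IntegrableOn (fun x => |F v x| ^ 3) (Ici (0 : ℝ) ×ˢ Ici (0 : ℝ)))
    (t : Finset (ℤ × XorTriple)) :
    ∑ p ∈ t, |LI p.1 p.2.1 F| ≤ C * (NN (F 0) + NN (F 1) + NN (F 2)) := by
  set kmin : ℤ := -1 - ∑ p ∈ t, |p.1| with hkmin
  have hkm : ∀ p ∈ t, kmin < p.1 := by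
    intro p hp
    have h1 : |p.1| ≤ ∑ p ∈ t, |p.1| :=
      Finset.single_le_sum (f := fun p : ℤ × XorTriple => |p.1|) (fun _ _ => abs_nonneg _) hp
    have h2 := neg_abs_le p.1
    omega
  set rr : ℤ × XorTriple → ℕ := fun p => (p.1 - kmin - 1).toNat with hrr
  have hr : ∀ p ∈ t, p.1 = kmin + (rr p + 1) := by
    intro p hp
    have := hkm p hp
    rw [hrr]
    simp only
    rw [Int.toNat_of_nonneg (by omega)]
    ring
  set R : ℕ := ∑ p ∈ t, (rr p + 1 + p.2.1.1 + p.2.1.2.1) with hR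
  have hRp : ∀ p ∈ t, rr p + 1 + p.2.1.1 + p.2.1.2.1 ≤ R := fun p hp =>
    Finset.single_le_sum (f := fun p : ℤ × XorTriple => rr p + 1 + p.2.1.1 + p.2.1.2.1)
      (fun _ _ => Nat.zero_le _) hp
  set δ : ℝ := (2 : ℝ) ^ kmin with hδ
  have hδ0 : 0 < δ := by rw [hδ]; positivity
  set D : Set (ℝ × ℝ × ℝ) := Ico (0 : ℝ) δ ×ˢ (Ico (0 : ℝ) δ ×ˢ Ico (0 : ℝ) δ) with hD
  set T : ℝ × ℝ × ℝ → ℕ → ℕ → ℕ → ℝ := fun u r n0 n1 =>
    |Tb (samp (F 0) δ u.1 u.2.1) (samp (F 1) δ u.2.1 u.2.2) (samp (F 2) δ u.2.2 u.1) r n0 n1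
      (n0 ^^^ n1)| / 2 ^ (r + 1) with hT
  have hT0 : ∀ u r n0 n1, 0 ≤ T u r n0 n1 := fun u r n0 n1 => by
    rw [hT]; positivity
  have hTI : ∀ r n0 n1, IntegrableOn (fun u => T u r n0 n1) D := fun r n0 n1 =>
    ((Tb_int δ r n0 n1 (n0 ^^^ n1) hF hM).abs).div_const _
  -- pointwise bound
  have hpt : ∀ u, ∑ p ∈ t, T u (rr p) p.2.1.1 p.2.1.2.1 ≤
      C * ∑ i ∈ Finset.range (2 ^ R), ∑ j ∈ Finset.range (2 ^ R),
        (|samp (F 0) δ u.1 u.2.1 i j| ^ 3 + |samp (F 1) δ u.2.1 u.2.2 i j| ^ 3 +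
          |samp (F 2) δ u.2.2 u.1 i j| ^ 3) := by
    intro u
    refine le_trans ?_ (h (samp (F 0) δ u.1 u.2.1) (samp (F 1) δ u.2.1 u.2.2)
      (samp (F 2) δ u.2.2 u.1) R)
    have e1 : ∑ r ∈ Finset.range R, ∑ n0 ∈ Finset.range (2 ^ (R - 1 - r)),
        ∑ n1 ∈ Finset.range (2 ^ (R - 1 - r)), T u r n0 n1 =
        ∑ q ∈ (Finset.range R).sigma (fun r => Finset.range (2 ^ (R - 1 - r)) ×ˢ
          Finset.range (2 ^ (R - 1 - r))), T u q.1 q.2.1 q.2.2 := by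
      rw [Finset.sum_sigma]
      refine Finset.sum_congr rfl fun r _ => ?_
      rw [Finset.sum_product]
    change _ ≤ ∑ r ∈ Finset.range R, ∑ n0 ∈ Finset.range (2 ^ (R - 1 - r)),
        ∑ n1 ∈ Finset.range (2 ^ (R - 1 - r)), T u r n0 n1
    rw [e1]
    have hinj : Set.InjOn (fun p : ℤ × XorTriple =>
        (⟨rr p, (p.2.1.1, p.2.1.2.1)⟩ : Σ _ : ℕ, ℕ × ℕ)) t := by
      intro p hp q hq hpq
      simp only [Sigma.mk.injEq, heq_eq_eq, Prod.mk.injEq] at hpq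
      obtain ⟨h1, h2, h3⟩ := hpq
      have hp1 := hr p hp
      have hq1 := hr q hq
      refine Prod.ext (by rw [hp1, hq1, h1]) (Subtype.ext (Prod.ext h2 (Prod.ext h3 ?_)))
      have hp2 := Nat.xor_eq_zero_iff.mp p.2.2
      have hq2 := Nat.xor_eq_zero_iff.mp q.2.2
      rw [← hp2, ← hq2, h2, h3]
    calc ∑ p ∈ t, T u (rr p) p.2.1.1 p.2.1.2.1
        = ∑ q ∈ t.image (fun p : ℤ × XorTriple =>
            (⟨rr p, (p.2.1.1, p.2.1.2.1)⟩ : Σ _ : ℕ, ℕ × ℕ)), T u q.1 q.2.1 q.2.2 := by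
          rw [Finset.sum_image hinj]
      _ ≤ _ := by
          refine Finset.sum_le_sum_of_subset_of_nonneg ?_ fun q _ _ => hT0 _ _ _ _
          intro q hq
          rw [Finset.mem_image] at hq
          obtain ⟨p, hp, rfl⟩ := hq
          have := hRp p hp
          rw [Finset.mem_sigma, Finset.mem_product, Finset.mem_range, Finset.mem_range,
            Finset.mem_range]
          refine ⟨by simp only; omega, ?_, ?_⟩
          · refine lt_of_le_of_lt ?_ (Nat.lt_two_pow_self)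
            simp only; omega
          · refine lt_of_le_of_lt ?_ (Nat.lt_two_pow_self)
            simp only; omega
  obtain ⟨i0, b0⟩ := samp_avg hδ0 (2 ^ R) (hF 0) (hM 0) (hN 0)
    (π := fun u => (u.1, u.2.1)) (by fun_prop) (fun φ hφ hb => (avg hδ0.le hφ hb).1)
  obtain ⟨i1, b1⟩ := samp_avg hδ0 (2 ^ R) (hF 1) (hM 1) (hN 1)
    (π := fun u => (u.2.1, u.2.2)) (by fun_prop) (fun φ hφ hb => (avg hδ0.le hφ hb).2.1)
  obtain ⟨i2, b2⟩ := samp_avg hδ0 (2 ^ R) (hF 2) (hM 2) (hN 2)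
    (π := fun u => (u.2.2, u.1)) (by fun_prop) (fun φ hφ hb => (avg hδ0.le hφ hb).2.2)
  have esum : ∀ u : ℝ × ℝ × ℝ, ∑ i ∈ Finset.range (2 ^ R), ∑ j ∈ Finset.range (2 ^ R),
        (|samp (F 0) δ u.1 u.2.1 i j| ^ 3 + |samp (F 1) δ u.2.1 u.2.2 i j| ^ 3 +
          |samp (F 2) δ u.2.2 u.1 i j| ^ 3) =
      ∑ i ∈ Finset.range (2 ^ R), ∑ j ∈ Finset.range (2 ^ R), |samp (F 0) δ u.1 u.2.1 i j| ^ 3 +
      ∑ i ∈ Finset.range (2 ^ R), ∑ j ∈ Finset.range (2 ^ R), |samp (F 1) δ u.2.1 u.2.2 i j| ^ 3 +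
      ∑ i ∈ Finset.range (2 ^ R), ∑ j ∈ Finset.range (2 ^ R), |samp (F 2) δ u.2.2 u.1 i j| ^ 3 := by
    intro u
    simp_rw [Finset.sum_add_distrib]
  calc ∑ p ∈ t, |LI p.1 p.2.1 F|
      ≤ ∑ p ∈ t, δ⁻¹ * ∫ u in D, T u (rr p) p.2.1.1 p.2.1.2.1 :=
        Finset.sum_le_sum fun p hp => LI_le (hr p hp) p.2 hF hM
    _ = δ⁻¹ * ∫ u in D, ∑ p ∈ t, T u (rr p) p.2.1.1 p.2.1.2.1 := by
        rw [← Finset.mul_sum, integral_finsetSum _ fun p _ => hTI _ _ _]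
    _ ≤ δ⁻¹ * ∫ u in D, C * (
        ∑ i ∈ Finset.range (2 ^ R), ∑ j ∈ Finset.range (2 ^ R),
          |samp (F 0) δ u.1 u.2.1 i j| ^ 3 +
        ∑ i ∈ Finset.range (2 ^ R), ∑ j ∈ Finset.range (2 ^ R),
          |samp (F 1) δ u.2.1 u.2.2 i j| ^ 3 +
        ∑ i ∈ Finset.range (2 ^ R), ∑ j ∈ Finset.range (2 ^ R),
          |samp (F 2) δ u.2.2 u.1 i j| ^ 3) := by
        refine mul_le_mul_of_nonneg_left ?_ (by positivity)
        refine integral_mono (integrable_finsetSum _ fun p _ => hTI _ _ _)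
          (((i0.add i1).add i2).const_mul C) fun u => ?_
        have := hpt u
        rw [esum] at this
        exact this
    _ = δ⁻¹ * (C * ((∫ u in D, ∑ i ∈ Finset.range (2 ^ R), ∑ j ∈ Finset.range (2 ^ R),
          |samp (F 0) δ u.1 u.2.1 i j| ^ 3) +
        (∫ u in D, ∑ i ∈ Finset.range (2 ^ R), ∑ j ∈ Finset.range (2 ^ R),
          |samp (F 1) δ u.2.1 u.2.2 i j| ^ 3) +
        ∫ u in D, ∑ i ∈ Finset.range (2 ^ R), ∑ j ∈ Finset.range (2 ^ R),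
          |samp (F 2) δ u.2.2 u.1 i j| ^ 3)) := by
        rw [integral_const_mul]
        have e3 := (integral_add (i0.add i1) i2).trans
          (congrArg₂ (· + ·) (integral_add i0 i1) rfl)
        exact congrArg (fun z => δ⁻¹ * (C * z)) e3
    _ ≤ δ⁻¹ * (C * (δ * NN (F 0) + δ * NN (F 1) + δ * NN (F 2))) := by
        refine mul_le_mul_of_nonneg_left ?_ (by positivity)
        refine mul_le_mul_of_nonneg_left ?_ hC
        exact add_le_add (add_le_add b0 b1) b2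
    _ = C * (NN (F 0) + NN (F 1) + NN (F 2)) := by
        field_simp


/-! ### Homogeneity -/

theorem LI_smul (k : ℤ) (n : ℕ × ℕ × ℕ) (F : Fin 3 → ℝ × ℝ → ℝ) (s : Fin 3 → ℝ) :
    LI k n (fun v x => s v * F v x) = s 0 * s 1 * s 2 * LI k n F := by
  have h1 : ∫ x : ℝ × ℝ × ℝ in dyadicI k n.1 ×ˢ (dyadicI k n.2.1 ×ˢ dyadicI k n.2.2),
      (s 0 * F 0 (x.1, x.2.1)) * (s 1 * F 1 (x.2.1, x.2.2)) * (s 2 * F 2 (x.2.2, x.1)) *
        (haar k n.1 x.1 * haar k n.2.1 x.2.1 * haar k n.2.2 x.2.2) =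
      s 0 * s 1 * s 2 * ∫ x : ℝ × ℝ × ℝ in dyadicI k n.1 ×ˢ (dyadicI k n.2.1 ×ˢ dyadicI k n.2.2),
      F 0 (x.1, x.2.1) * F 1 (x.2.1, x.2.2) * F 2 (x.2.2, x.1) *
        (haar k n.1 x.1 * haar k n.2.1 x.2.1 * haar k n.2.2 x.2.2) := by
    rw [← integral_const_mul]
    refine integral_congr_ae (Filter.Eventually.of_forall fun x => ?_)
    simp only
    ring
  unfold LI
  rw [h1]
  ring

theorem NN_smul (G : ℝ × ℝ → ℝ) {s : ℝ} (hs : 0 ≤ s) :
    NN (fun x => s * G x) = s ^ 3 * NN G := by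
  unfold NN
  rw [← integral_const_mul]
  refine integral_congr_ae (Filter.Eventually.of_forall fun x => ?_)
  simp only
  rw [abs_mul, abs_of_nonneg hs]
  ring

theorem NN_nonneg (G : ℝ × ℝ → ℝ) : 0 ≤ NN G :=
  setIntegral_nonneg (measurableSet_Ici.prod measurableSet_Ici) fun x _ => by positivity

theorem norm3_eq (G : ℝ × ℝ → ℝ) : norm3 G = NN G ^ (1 / 3 : ℝ) := rfl

theorem fin_bound_eps {C : ℝ} (hC : 0 ≤ C) (h : DiscBound C)
    {F : Fin 3 → ℝ × ℝ → ℝ} (hF : ∀ v, Measurable (F v)) {M : ℝ} (hM : ∀ v x, |F v x| ≤ M)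
    (hN : ∀ v, IntegrableOn (fun x => |F v x| ^ 3) (Ici (0 : ℝ) ×ˢ Ici (0 : ℝ)))
    (t : Finset (ℤ × XorTriple)) {e : ℝ} (he : 0 < e) :
    ∑ p ∈ t, |LI p.1 p.2.1 F| ≤ 3 * C * ((NN (F 0) + e) ^ (1 / 3 : ℝ) *
      (NN (F 1) + e) ^ (1 / 3 : ℝ) * (NN (F 2) + e) ^ (1 / 3 : ℝ)) := by
  have hpos : ∀ v, 0 < NN (F v) + e := fun v => by have := NN_nonneg (F v); linarith
  set a : Fin 3 → ℝ := fun v => (NN (F v) + e) ^ (1 / 3 : ℝ) with ha
  have ha0 : ∀ v, 0 < a v := fun v => Real.rpow_pos_of_pos (hpos v) _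
  have ha3 : ∀ v, a v ^ 3 = NN (F v) + e := fun v => by
    rw [ha]
    simp only
    rw [← Real.rpow_natCast, ← Real.rpow_mul (hpos v).le]
    norm_num
  set s : Fin 3 → ℝ := fun v => (a v)⁻¹ with hs
  have hs0 : ∀ v, 0 < s v := fun v => inv_pos.mpr (ha0 v)
  have hM0 : 0 ≤ M := (abs_nonneg _).trans (hM 0 (0, 0))
  have key := fin_bound hC h (F := fun v x => s v * F v x) (M := (s 0 + s 1 + s 2) * M)
    (fun v => (hF v).const_mul _) (fun v x => by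
      rw [abs_mul, abs_of_pos (hs0 v)]
      refine mul_le_mul ?_ (hM v x) (abs_nonneg _) (by have := hs0 0; have := hs0 1; have := hs0 2; positivity)
      have h0 := hs0 0
      have h1 := hs0 1
      have h2 := hs0 2
      fin_cases v
      · show s 0 ≤ _; linarith
      · show s 1 ≤ _; linarith
      · show s 2 ≤ _; linarith)
    (fun v => by
      have : (fun x => |s v * F v x| ^ 3) = fun x => s v ^ 3 * |F v x| ^ 3 := by
        funext x
        rw [abs_mul, abs_of_pos (hs0 v)]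
        ring
      rw [this]
      exact (hN v).const_mul _) t
  have e1 : ∑ p ∈ t, |LI p.1 p.2.1 (fun v x => s v * F v x)| =
      s 0 * s 1 * s 2 * ∑ p ∈ t, |LI p.1 p.2.1 F| := by
    rw [Finset.mul_sum]
    refine Finset.sum_congr rfl fun p _ => ?_
    rw [LI_smul, abs_mul, abs_of_pos (mul_pos (mul_pos (hs0 0) (hs0 1)) (hs0 2))]
  have e2 : ∀ v, NN (fun x => s v * F v x) ≤ 1 := by
    intro v
    rw [NN_smul _ (hs0 v).le, hs]
    simp only
    rw [inv_pow, ha3, inv_mul_le_iff₀ (hpos v)]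
    linarith
  rw [e1] at key
  have k2 : s 0 * s 1 * s 2 * ∑ p ∈ t, |LI p.1 p.2.1 F| ≤ 3 * C := by
    refine key.trans ?_
    have := mul_le_mul_of_nonneg_left (add_le_add (add_le_add (e2 0) (e2 1)) (e2 2)) hC
    linarith
  have k3 := mul_le_mul_of_nonneg_right k2
    (mul_pos (mul_pos (ha0 0) (ha0 1)) (ha0 2)).le
  have k4 : s 0 * s 1 * s 2 * (∑ p ∈ t, |LI p.1 p.2.1 F|) * (a 0 * a 1 * a 2) =
      ∑ p ∈ t, |LI p.1 p.2.1 F| := by
    rw [hs]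
    simp only
    have h0 := (ha0 0).ne'
    have h1 := (ha0 1).ne'
    have h2 := (ha0 2).ne'
    field_simp
  rw [k4] at k3
  exact k3

theorem fin_bound3 {C : ℝ} (hC : 0 ≤ C) (h : DiscBound C)
    {F : Fin 3 → ℝ × ℝ → ℝ} (hF : ∀ v, Measurable (F v)) {M : ℝ} (hM : ∀ v x, |F v x| ≤ M)
    (hN : ∀ v, IntegrableOn (fun x => |F v x| ^ 3) (Ici (0 : ℝ) ×ˢ Ici (0 : ℝ)))
    (t : Finset (ℤ × XorTriple)) :
    ∑ p ∈ t, |LI p.1 p.2.1 F| ≤ 3 * C * ∏ v, norm3 (F v) := by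
  rw [Fin.prod_univ_three]
  simp only [norm3_eq]
  have hc : ∀ v, Continuous fun e : ℝ => (NN (F v) + e) ^ (1 / 3 : ℝ) := fun v =>
    (continuous_const.add continuous_id).rpow_const fun _ => Or.inr (by norm_num)
  have hc3 : Continuous fun e : ℝ => 3 * C * ((NN (F 0) + e) ^ (1 / 3 : ℝ) *
      (NN (F 1) + e) ^ (1 / 3 : ℝ) * (NN (F 2) + e) ^ (1 / 3 : ℝ)) :=
    continuous_const.mul (((hc 0).mul (hc 1)).mul (hc 2))
  have ht := (hc3.tendsto 0).mono_left (nhdsWithin_le_nhds (s := Ioi (0 : ℝ)))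
  simp only [add_zero] at ht
  refine ge_of_tendsto ht ?_
  filter_upwards [self_mem_nhdsWithin] with e he
  exact fin_bound_eps hC h hF hM hN t he

/-- The main reduction. -/
theorem main_of_disc {C : ℝ} (hC : 0 ≤ C) (h : DiscBound C) : MainBound (3 * C) := by
  intro F hF hB hcs
  choose B hB using hB
  set M : ℝ := |B 0| + |B 1| + |B 2| with hMdef
  have hM : ∀ v x, |F v x| ≤ M := by
    intro v x
    refine (hB v x).trans ((le_abs_self _).trans ?_)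
    have h0 := abs_nonneg (B 0)
    have h1 := abs_nonneg (B 1)
    have h2 := abs_nonneg (B 2)
    fin_cases v
    · show |B 0| ≤ _; linarith
    · show |B 1| ≤ _; linarith
    · show |B 2| ≤ _; linarith
  have hN : ∀ v, IntegrableOn (fun x => |F v x| ^ 3) (Ici (0 : ℝ) ×ˢ Ici (0 : ℝ)) := by
    intro v
    have h1 : IntegrableOn (fun x => |F v x| ^ 3) (tsupport (F v)) := by
      refine bdd_int (M := M ^ 3) (hcs v).measure_lt_top
        ((hF v).abs.pow_const 3) fun x => ?_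
      rw [Real.norm_eq_abs, abs_of_nonneg (by positivity)]
      exact pow_le_pow_left₀ (abs_nonneg _) (hM v x) 3
    have h2 : Integrable (fun x => |F v x| ^ 3) := by
      rw [← integrableOn_iff_integrable_of_support_subset (s := tsupport (F v))]
      · exact h1
      · intro x hx
        by_contra h3
        apply hx
        simp only
        rw [image_eq_zero_of_notMem_tsupport h3]
        simp
    exact h2.integrableOn
  have hfin := fin_bound3 hC h hF hM hN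
  have hsum : ∀ k : ℤ, Summable fun n : XorTriple => |LI k n.1 F| := by
    intro k
    refine summable_of_sum_le (c := 3 * C * ∏ v, norm3 (F v)) (fun _ => abs_nonneg _) fun u => ?_
    have := hfin ({k} ×ˢ u)
    rwa [Finset.sum_product, Finset.sum_singleton] at this
  have hS : ∀ S : Finset ℤ, ∑ k ∈ S, ∑' n : XorTriple, |LI k n.1 F| ≤
      3 * C * ∏ v, norm3 (F v) := by
    intro S
    rw [← Summable.tsum_finsetSum fun k _ => hsum k]
    refine (summable_sum fun k _ => hsum k).tsum_le_of_sum_le fun u => ?_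
    have := hfin (S ×ˢ u)
    rwa [Finset.sum_product_right] at this
  refine ⟨hsum, hS, fun S ε hε => ?_⟩
  refine le_trans ?_ (hS S)
  unfold Lam
  refine (Finset.abs_sum_le_sum_abs _ _).trans (Finset.sum_le_sum fun k _ => ?_)
  rw [abs_mul]
  have h1 : |∑' n : XorTriple, LI k n.1 F| ≤ ∑' n : XorTriple, |LI k n.1 F| := by
    have := norm_tsum_le_tsum_norm (f := fun n : XorTriple => LI k n.1 F) (hsum k)
    simpa only [Real.norm_eq_abs] using this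
  calc |ε k| * |∑' n : XorTriple, LI k n.1 F| ≤ 1 * |∑' n : XorTriple, LI k n.1 F| :=
        mul_le_mul_of_nonneg_right (hε k) (abs_nonneg _)
    _ ≤ _ := by rw [one_mul]; exact h1

end P075
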