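import Vale.Agent.P075.Defs

/-!
# P075: the potential and the statement of the one-step (core) inequality
-/

namespace P075

open Matrix Filter

/-- `phi Y = Tr (Y² (1+Y)⁻¹) = Tr Y - n + Tr (1+Y)⁻¹`. -/
noncomputable def phi {ι : Type} [Fintype ι] [DecidableEq ι] (Y : Matrix ι ι ℝ) : ℝ :=
  Y.trace - Fintype.card ι + ((1 + Y)⁻¹).trace

/-- `X_v = F_v F_vᵀ + F_{v-1}ᵀ F_{v-1}`. -/
def XX {ι : Type} [Fintype ι] (F G : Matrix ι ι ℝ) : Matrix ι ι ℝ := F * Fᵀ + Gᵀ * G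

/-- The potential at unit scale. -/
noncomputable def Psi {ι : Type} [Fintype ι] [DecidableEq ι] (F : Fin 3 → Matrix ι ι ℝ) : ℝ :=
  phi (XX (F 0) (F 2)) + phi (XX (F 1) (F 0)) + phi (XX (F 2) (F 1))

/-- The (truncated) potential summed over the dyadic scales `2^j`, `|j| ≤ J`. -/
noncomputable def WW {ι : Type} [Fintype ι] [DecidableEq ι] (J : ℕ)
    (F : Fin 3 → Matrix ι ι ℝ) : ℝ :=
  ∑ j ∈ Finset.Icc (-(J : ℤ)) (J : ℤ), (8 : ℝ) ^ (-j) * Psi (fun v => (2 : ℝ) ^ j • F v)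

/-- sign on `ι ⊕ ι`. -/
def ss {ι : Type} (i : ι ⊕ ι) : ℝ := Sum.elim (fun _ => (1 : ℝ)) (fun _ => -1) i

/-- `T(G) = Tr (J G_0 J G_1 J G_2)` as an explicit triple sum. -/
def Tsum {ι : Type} [Fintype ι] (G : Fin 3 → Matrix (ι ⊕ ι) (ι ⊕ ι) ℝ) : ℝ :=
  ∑ i, ∑ j, ∑ l, ss i * ss j * ss l * (G 0 i j * G 1 j l * G 2 l i)

/-- The one-step inequality with constant `C1`. -/
def CoreBound (C1 : ℝ) : Prop :=
  ∀ (ι : Type) [Fintype ι] [DecidableEq ι] (A B C D : Fin 3 → Matrix ι ι ℝ),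
    ∃ τ : ℕ → ℝ,
      Tendsto τ atTop (nhds (Tsum (fun v => fromBlocks (A v) (B v) (C v) (D v)))) ∧
      ∀ J : ℕ, |τ J| ≤ C1 *
        ((WW J ![(2 : ℝ) • A 0, (2 : ℝ) • A 1, (2 : ℝ) • A 2]
          + WW J ![(2 : ℝ) • B 0, (2 : ℝ) • D 1, (2 : ℝ) • C 2]
          + WW J ![(2 : ℝ) • C 0, (2 : ℝ) • B 1, (2 : ℝ) • D 2]
          + WW J ![(2 : ℝ) • D 0, (2 : ℝ) • C 1, (2 : ℝ) • B 2]) / 4
          - WW J (fun v => fromBlocks (A v) (B v) (C v) (D v)))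

end P075
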