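import Vale.Agent.P075.Lin

/-!
# P075: resolvents `(1+X)⁻¹` of positive semidefinite matrices and the gain lemma
-/

namespace P075

open Matrix

section res

variable {n : Type} [Fintype n] [DecidableEq n]

omit [Fintype n] in
theorem pd_one_add {X : Matrix n n ℝ} (hX : X.PosSemidef) : (1 + X).PosDef :=
  Matrix.PosDef.one.add_posSemidef hX

/-- the resolvent -/
noncomputable def res (X : Matrix n n ℝ) : Matrix n n ℝ := (1 + X)⁻¹

theorem res_mul {X : Matrix n n ℝ} (hX : X.PosSemidef) : res X * (1 + X) = 1 := by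
  have h := (pd_one_add hX).isUnit
  exact Matrix.nonsing_inv_mul _ ((Matrix.isUnit_iff_isUnit_det _).mp h)

theorem mul_res {X : Matrix n n ℝ} (hX : X.PosSemidef) : (1 + X) * res X = 1 := by
  have h := (pd_one_add hX).isUnit
  exact Matrix.mul_nonsing_inv _ ((Matrix.isUnit_iff_isUnit_det _).mp h)

theorem res_mul_X {X : Matrix n n ℝ} (hX : X.PosSemidef) : res X * X = 1 - res X := by
  have := res_mul hX
  rw [Matrix.mul_add, Matrix.mul_one] at this
  rw [← this]; abel

theorem X_mul_res {X : Matrix n n ℝ} (hX : X.PosSemidef) : X * res X = 1 - res X := by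
  have := mul_res hX
  rw [Matrix.add_mul, Matrix.one_mul] at this
  rw [← this]; abel

theorem res_ps {X : Matrix n n ℝ} (hX : X.PosSemidef) : (res X).PosSemidef :=
  (pd_one_add hX).inv.posSemidef

theorem res_symm {X : Matrix n n ℝ} (hX : X.PosSemidef) : (res X)ᵀ = res X :=
  ps_symm (res_ps hX)

/-- `1 - P ≥ 0` -/
theorem one_sub_res_ps {X : Matrix n n ℝ} (hX : X.PosSemidef) : (1 - res X).PosSemidef := by
  have e : 1 - res X = res X * X * (res X)ᵀ + (res X * X) * (res X * X)ᵀ := by
    rw [Matrix.transpose_mul, res_symm hX, ps_symm hX]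
    have h1 : res X * X * res X + res X * X * (X * res X) = res X * X * ((1 + X) * res X) := by
      rw [Matrix.add_mul, Matrix.one_mul, Matrix.mul_add]
    rw [h1, mul_res hX, Matrix.mul_one, res_mul_X hX]
  rw [e]
  exact (ps_congr hX _).add (ps_self _)

/-- `P(1-P) ≥ 0` -/
theorem res_mul_one_sub_ps {X : Matrix n n ℝ} (hX : X.PosSemidef) :
    (res X * (1 - res X)).PosSemidef := by
  have e : res X * (1 - res X) = res X * X * (res X)ᵀ := by
    rw [res_symm hX, Matrix.mul_assoc, X_mul_res hX]
  rw [e]; exact ps_congr hX _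

/-- the gain functional `Tr[P(1-P) J (1-P) J]` -/
noncomputable def gain (J X : Matrix n n ℝ) : ℝ :=
  (res X * (1 - res X) * (J * (1 - res X) * J)).trace

theorem gain_nonneg {J X : Matrix n n ℝ} (hJ : Jᵀ = J) (hX : X.PosSemidef) : 0 ≤ gain J X := by
  refine trace_mul_nonneg (res_mul_one_sub_ps hX) ?_
  have := ps_congr (one_sub_res_ps hX) J
  rwa [hJ] at this

/-- antitonicity of the resolvent -/
theorem res_sub_res_ps {A B : Matrix n n ℝ} (hA : A.PosSemidef) (hB : B.PosSemidef) :
    (res A - res (A + B)).PosSemidef := by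
  have hAB : (A + B).PosSemidef := hA.add hB
  set P := res A with hP
  set R := res (A + B) with hR
  have h1 : P * (1 + A) = 1 := res_mul hA
  have h1' : (1 + A) * P = 1 := mul_res hA
  have h2 : R * (1 + (A + B)) = 1 := res_mul hAB
  have h2' : (1 + (A + B)) * R = 1 := mul_res hAB
  have hPs : Pᵀ = P := res_symm hA
  have hRs : Rᵀ = R := res_symm hAB
  have e : P - R = (P - R) * (1 + A) * (P - R)ᵀ + R * B * Rᵀ := by
    rw [Matrix.transpose_sub, hPs, hRs]
    have a1 : (P - R) * (1 + A) * (P - R) = (1 - R * (1 + A)) * (P - R) := by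
      rw [Matrix.sub_mul, h1]
    have a2 : (1 - R * (1 + A)) * (P - R)
        = P - R - R * ((1 + A) * P) + R * (1 + A) * R := by
      noncomm_ring
    have a3 : R * (1 + A) * R + R * B * R = R := by
      have : R * (1 + A) * R + R * B * R = (R * (1 + (A + B))) * R := by noncomm_ring
      rw [this, h2, Matrix.one_mul]
    rw [a1, a2, h1', Matrix.mul_one]
    have : P - R - R + R * (1 + A) * R + R * B * R
        = P - R - R + (R * (1 + A) * R + R * B * R) := by abel
    rw [this, a3]; abel
  rw [e]
  exact (ps_congr (Matrix.PosDef.posSemidef (pd_one_add hA)) _).add (ps_congr hB _)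

omit [DecidableEq n] in
theorem conj_ps {J X : Matrix n n ℝ} (hJ : Jᵀ = J) (hX : X.PosSemidef) :
    (J * X * J).PosSemidef := by
  have := ps_congr hX J
  rwa [hJ] at this

theorem eq_res_of_mul {X Q : Matrix n n ℝ} (hX : X.PosSemidef) (h : Q * (1 + X) = 1) :
    Q = res X := by
  have : Q * (1 + X) * res X = 1 * res X := by rw [h]
  rwa [Matrix.mul_assoc, mul_res hX, Matrix.mul_one, Matrix.one_mul] at this

theorem conj_mul_conj {J A B : Matrix n n ℝ} (hJJ : J * J = 1) :
    (J * A * J) * (J * B * J) = J * (A * B) * J := by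
  have : (J * A * J) * (J * B * J) = J * A * (J * J) * B * J := by
    simp only [Matrix.mul_assoc]
  rw [this, hJJ, Matrix.mul_one]
  simp only [Matrix.mul_assoc]

theorem conj_conj {J A : Matrix n n ℝ} (hJJ : J * J = 1) :
    J * (J * A * J) * J = A := by
  have : J * (J * A * J) * J = (J * J) * A * (J * J) := by
    simp only [Matrix.mul_assoc]
  rw [this, hJJ, Matrix.mul_one, Matrix.one_mul]

theorem conj_one_add {J X : Matrix n n ℝ} (hJJ : J * J = 1) :
    1 + J * X * J = J * (1 + X) * J := by
  rw [Matrix.mul_add, Matrix.add_mul, Matrix.mul_one, hJJ]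

theorem res_conj {J X : Matrix n n ℝ} (hJ : Jᵀ = J) (hJJ : J * J = 1) (hX : X.PosSemidef) :
    J * res X * J = res (J * X * J) := by
  refine eq_res_of_mul (conj_ps hJ hX) ?_
  rw [conj_one_add hJJ, conj_mul_conj hJJ, res_mul hX, Matrix.mul_one, hJJ]

theorem conj_res_add {J X : Matrix n n ℝ} (hJ : Jᵀ = J) (hJJ : J * J = 1) (hX : X.PosSemidef) :
    J * res (X + J * X * J) * J = res (X + J * X * J) := by
  rw [res_conj hJ hJJ (hX.add (conj_ps hJ hX))]
  congr 1
  rw [Matrix.mul_add, Matrix.add_mul, conj_conj hJJ, add_comm]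

theorem comm_of_conj {J R : Matrix n n ℝ} (hJJ : J * J = 1) (h : J * R * J = R) :
    J * R = R * J := by
  have : J * R * J * J = R * J := by rw [h]
  rwa [Matrix.mul_assoc, hJJ, Matrix.mul_one] at this

/-- `P - R = P X' R` for `P = (1+X)⁻¹`, `R = (1+X+X')⁻¹` -/
theorem res_sub {X X' : Matrix n n ℝ} (hX : X.PosSemidef) (hX' : X'.PosSemidef) :
    res X - res (X + X') = res X * X' * res (X + X') := by
  have h1 := res_mul hX
  have h2 := mul_res (hX.add hX')
  have e : res X * X' = res X * (1 + (X + X')) - res X * (1 + X) := by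
    rw [← Matrix.mul_sub]; congr 1; abel
  rw [e, h1, Matrix.sub_mul, Matrix.mul_assoc, h2, Matrix.mul_one, Matrix.one_mul]

theorem res_sub' {X X' : Matrix n n ℝ} (hX : X.PosSemidef) (hX' : X'.PosSemidef) :
    res X - res (X + X') = res (X + X') * X' * res X := by
  have h := congrArg Matrix.transpose (res_sub hX hX')
  rwa [Matrix.transpose_sub, Matrix.transpose_mul, Matrix.transpose_mul, res_symm hX,
    res_symm (hX.add hX'), ps_symm hX', ← Matrix.mul_assoc] at h

/-- algebraic identity behind the gain -/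
theorem gain_identity {X X' : Matrix n n ℝ} (hX : X.PosSemidef) (hX' : X'.PosSemidef) :
    res X - res (X + X') - res X * (1 - res X') * res X
      = res X * X' * (res X' - res (X + X')) * (X' * res X) := by
  have hPR := res_sub hX hX'
  have hPR' := res_sub' hX hX'
  have hXP := X_mul_res hX'
  have hPX := res_mul_X hX'
  set P := res X
  set R := res (X + X')
  set P' := res X'
  have a1 : P * X' * (P' - R) * (X' * P) = P * (X' * P') * (X' * P) - (P * X' * R) * (X' * P) := by
    simp only [Matrix.mul_sub, Matrix.sub_mul, Matrix.mul_assoc]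
  rw [a1, hXP, ← hPR]
  have a2 : P * (1 - P') * (X' * P) = P * (X' * P) - P * (P' * X') * P := by
    simp only [Matrix.mul_sub, Matrix.sub_mul, Matrix.mul_assoc, Matrix.mul_one]
  have a3 : (P - R) * (X' * P) = P * (X' * P) - R * X' * P := by
    simp only [Matrix.sub_mul, Matrix.mul_assoc]
  rw [a2, a3, hPX, ← hPR']
  abel

theorem gain_psd {X X' : Matrix n n ℝ} (hX : X.PosSemidef) (hX' : X'.PosSemidef) :
    (res X - res (X + X') - res X * (1 - res X') * res X).PosSemidef := by
  rw [gain_identity hX hX']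
  have hsub := res_sub_res_ps hX' hX
  rw [add_comm X' X] at hsub
  have := ps_congr hsub (res X * X')
  rwa [Matrix.transpose_mul, res_symm hX, ps_symm hX'] at this

theorem gain_eq {J X : Matrix n n ℝ} (hJ : Jᵀ = J) (hJJ : J * J = 1) (hX : X.PosSemidef) :
    (X * (res X * (1 - res (J * X * J)) * res X)).trace = gain J X := by
  have e1 : X * (res X * (1 - res (J * X * J)) * res X)
      = (X * res X * (1 - res (J * X * J))) * res X := by
    simp only [Matrix.mul_assoc]
  rw [e1, Matrix.trace_mul_comm]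
  have e2 : res X * (X * res X * (1 - res (J * X * J)))
      = res X * (X * res X) * (1 - res (J * X * J)) := by
    simp only [Matrix.mul_assoc]
  rw [e2, X_mul_res hX, gain, ← res_conj hJ hJJ hX]
  congr 2
  rw [Matrix.mul_sub, Matrix.sub_mul, Matrix.mul_one, hJJ]

/-- The key gain lemma: with `X' = J X J`, `R = (1+X+X')⁻¹`, `P = (1+X)⁻¹`:
`n + Tr R ≥ 2 Tr P + 2 Tr[P(1-P)J(1-P)J]`. -/
theorem gain_lemma {J X : Matrix n n ℝ} (hJ : Jᵀ = J) (hJJ : J * J = 1) (hX : X.PosSemidef) :
    2 * (res X).trace + 2 * gain J X ≤ Fintype.card n + (res (X + J * X * J)).trace := by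
  have hX'ps := conj_ps hJ hX
  have hge : gain J X ≤ (X * (res X - res (X + J * X * J))).trace := by
    have h0 := trace_mul_nonneg hX (gain_psd hX hX'ps)
    rw [Matrix.mul_sub, Matrix.trace_sub, gain_eq hJ hJJ hX] at h0
    linarith
  have hR := conj_res_add hJ hJJ hX
  have hJR := comm_of_conj hJJ hR
  have hP' := res_conj hJ hJJ hX
  have hXX := X_mul_res (hX.add hX'ps)
  have hXP := X_mul_res hX
  have hXP' := X_mul_res hX'ps
  rw [← hP'] at hXP'
  set X' := J * X * J with hX'
  set P := res X
  set R := res (X + X')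
  have hP't : (J * P * J).trace = P.trace := by
    rw [Matrix.trace_mul_comm, ← Matrix.mul_assoc, hJJ, Matrix.one_mul]
  have b : (X * (P - R)).trace + (X' * (J * P * J - R)).trace
      = (X * P).trace + (X' * (J * P * J)).trace - ((X + X') * R).trace := by
    rw [Matrix.mul_sub, Matrix.mul_sub, Matrix.add_mul, Matrix.trace_sub, Matrix.trace_sub,
      Matrix.trace_add]; ring
  rw [hXX, hXP, hXP', Matrix.trace_sub, Matrix.trace_sub, Matrix.trace_sub, hP't,
    Matrix.trace_one] at b
  have hsym : (X' * (J * P * J - R)).trace = (X * (P - R)).trace := by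
    have : X' * (J * P * J - R) = J * (X * (P - R)) * J := by
      have e : J * P * J - R = J * (P - R) * J := by
        rw [Matrix.mul_sub, Matrix.sub_mul, hR]
      rw [e, hX', conj_mul_conj hJJ]
    rw [this, Matrix.trace_mul_comm, ← Matrix.mul_assoc, hJJ, Matrix.one_mul]
  rw [hsym] at b
  linarith

end res

end P075
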