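import Vale.Agent.P075.Blk

/-!
# P075: the trilinear form is controlled by the gains
-/

namespace P075

open Matrix

section tri

variable {n : Type} [Fintype n] [DecidableEq n]

/-- left contraction -/
def LC (K : Matrix n n ℝ) : Prop := ∀ N, hs (K * N) ≤ hs N

omit [DecidableEq n] in
theorem LC.mul {A B : Matrix n n ℝ} (hA : LC A) (hB : LC B) : LC (A * B) := by
  intro N
  rw [Matrix.mul_assoc]
  exact (hA _).trans (hB _)

theorem lc_of_ps {K : Matrix n n ℝ} (h : (1 - Kᵀ * K).PosSemidef) : LC K := by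
  intro N
  have h1 := (ps_congr h Nᵀ).trace_nonneg
  have e : Nᵀ * (1 - Kᵀ * K) * Nᵀᵀ = Nᵀ * N - (K * N)ᵀ * (K * N) := by
    rw [Matrix.transpose_transpose, Matrix.mul_sub, Matrix.sub_mul, Matrix.mul_one,
      Matrix.transpose_mul]
    simp only [Matrix.mul_assoc]
  rw [e, Matrix.trace_sub, Matrix.trace_mul_comm, Matrix.trace_mul_comm (K * N)ᵀ] at h1
  unfold hs
  linarith

omit [DecidableEq n] in
/-- right multiplication by the transpose of a left contraction -/
theorem hs_mul_le {K : Matrix n n ℝ} (h : LC Kᵀ) (N : Matrix n n ℝ) : hs (N * K) ≤ hs N := by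
  rw [← hs_transpose, Matrix.transpose_mul, ← hs_transpose N]
  exact h _

theorem lc_J {J : Matrix n n ℝ} (hJ : Jᵀ = J) (hJJ : J * J = 1) : LC J := by
  refine lc_of_ps ?_
  rw [hJ, hJJ, sub_self]
  exact Matrix.PosSemidef.zero

theorem one_sub_sq_ps {X : Matrix n n ℝ} (hX : X.PosSemidef) :
    (1 - res X * res X).PosSemidef := by
  have e : 1 - res X * res X = (1 - res X) + res X * (1 - res X) := by
    rw [Matrix.mul_sub, Matrix.mul_one]; abel
  rw [e]
  exact (one_sub_res_ps hX).add (res_mul_one_sub_ps hX)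

theorem lc_res {X : Matrix n n ℝ} (hX : X.PosSemidef) : LC (res X) := by
  refine lc_of_ps ?_
  rw [res_symm hX]
  exact one_sub_sq_ps hX

theorem lc_comb {X : Matrix n n ℝ} (hX : X.PosSemidef) :
    LC ((1 / 4 : ℝ) • (1 + (3 : ℝ) • res X)) := by
  refine lc_of_ps ?_
  have e : 1 - ((1 / 4 : ℝ) • (1 + (3 : ℝ) • res X))ᵀ * ((1 / 4 : ℝ) • (1 + (3 : ℝ) • res X))
      = (6 / 16 : ℝ) • (1 - res X) + (9 / 16 : ℝ) • (1 - res X * res X) := by
    rw [Matrix.transpose_smul, Matrix.transpose_add, Matrix.transpose_smul, res_symm hX,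
      Matrix.transpose_one, Matrix.smul_mul, Matrix.mul_smul, Matrix.mul_add, Matrix.add_mul,
      Matrix.add_mul, Matrix.mul_one, Matrix.mul_one, Matrix.one_mul, Matrix.smul_mul,
      Matrix.mul_smul]
    module
  rw [e]
  exact ((one_sub_res_ps hX).smul (by norm_num)).add ((one_sub_sq_ps hX).smul (by norm_num))

theorem gain_cycle (J X : Matrix n n ℝ) :
    gain J X = ((1 - res X) * (J * (res X * (1 - res X)) * J)).trace := by
  unfold gain
  rw [Matrix.trace_mul_comm]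
  have : J * (1 - res X) * J * (res X * (1 - res X))
      = J * ((1 - res X) * J * (res X * (1 - res X))) := by simp only [Matrix.mul_assoc]
  rw [this, Matrix.trace_mul_comm]
  congr 1
  simp only [Matrix.mul_assoc]

omit [DecidableEq n] in
/-- monotonicity: replacing `F Fᵀ` by the larger `X`. -/
theorem hs_mul_le_of_le {X F : Matrix n n ℝ} (M : Matrix n n ℝ)
    (hF : (X - F * Fᵀ).PosSemidef) : hs (M * F) ≤ (M * X * Mᵀ).trace := by
  have h := (ps_congr hF M).trace_nonneg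
  rw [Matrix.mul_sub, Matrix.sub_mul, Matrix.trace_sub] at h
  have e : M * (F * Fᵀ) * Mᵀ = (M * F) * (M * F)ᵀ := by
    rw [Matrix.transpose_mul]; simp only [Matrix.mul_assoc]
  rw [e] at h
  unfold hs
  linarith

theorem bound1 {J X F : Matrix n n ℝ} (hJ : Jᵀ = J) (hX : X.PosSemidef)
    (hF : (X - F * Fᵀ).PosSemidef) :
    hs ((1 - res X) * J * res X * F) ≤ gain J X := by
  refine (hs_mul_le_of_le _ hF).trans ?_
  have hPs := res_symm hX
  have hXP := X_mul_res hX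
  set P := res X with hP
  have e1 : ((1 - P) * J * P * X * ((1 - P) * J * P)ᵀ).trace
      = ((1 - P) * (1 - P) * (J * (P * (1 - P)) * J)).trace := by
    have t : ((1 - P) * J * P)ᵀ = P * (J * (1 - P)) := by
      rw [Matrix.transpose_mul, Matrix.transpose_mul, Matrix.transpose_sub, Matrix.transpose_one,
        hPs, hJ]
    rw [t]
    have : (1 - P) * J * P * X * (P * (J * (1 - P)))
        = ((1 - P) * (J * (P * (X * P)) * J)) * (1 - P) := by
      simp only [Matrix.mul_assoc]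
    rw [this, Matrix.trace_mul_comm, hXP, Matrix.mul_assoc (1 - P) (1 - P)]
  rw [e1, gain_cycle, ← hP]
  have hk : (J * (P * (1 - P)) * J).PosSemidef := conj_ps hJ (res_mul_one_sub_ps hX)
  have h := trace_mul_nonneg (res_mul_one_sub_ps hX) hk
  rw [← hP] at h
  have e2 : P * (1 - P) = (1 - P) - (1 - P) * (1 - P) := by
    rw [Matrix.sub_mul 1 P (1 - P), Matrix.one_mul]; abel
  have e3 : (P * (1 - P) * (J * (P * (1 - P)) * J)).trace
      = ((1 - P) * (J * (P * (1 - P)) * J)).trace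
        - ((1 - P) * (1 - P) * (J * (P * (1 - P)) * J)).trace := by
    rw [← Matrix.trace_sub, ← Matrix.sub_mul, ← e2]
  rw [e3] at h
  linarith

theorem bound3 {J X F G : Matrix n n ℝ} (hJ : Jᵀ = J) (hX : X.PosSemidef)
    (hF : (X - Fᵀ * F).PosSemidef) (hG : (X - G * Gᵀ).PosSemidef) :
    hs (F * (res X * J * res X) * G) ≤ gain J X := by
  refine (hs_mul_le_of_le _ hG).trans ?_
  have hPs := res_symm hX
  have hXP := X_mul_res hX
  have hk : (J * (res X * (1 - res X)) * J).PosSemidef := conj_ps hJ (res_mul_one_sub_ps hX)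
  have hk1 := one_sub_res_ps hX
  set P := res X with hP
  set K := J * (P * (1 - P)) * J with hK
  have e1 : (F * (P * J * P) * X * (F * (P * J * P))ᵀ).trace = (P * K * P * (Fᵀ * F)).trace := by
    have t : (F * (P * J * P))ᵀ = P * (J * (P * Fᵀ)) := by
      rw [Matrix.transpose_mul, Matrix.transpose_mul, Matrix.transpose_mul, hPs, hJ]
      simp only [Matrix.mul_assoc]
    rw [t]
    have : F * (P * J * P) * X * (P * (J * (P * Fᵀ)))
        = F * (P * (J * (P * (X * P)) * J) * P * Fᵀ) := by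
      simp only [Matrix.mul_assoc]
    rw [this, Matrix.trace_mul_comm, hXP, ← hK]
    simp only [Matrix.mul_assoc]
  have hPKP : (P * K * P).PosSemidef := by
    have := ps_congr hk P
    rwa [hPs] at this
  have h2 : (P * K * P * (Fᵀ * F)).trace ≤ (P * K * P * X).trace := by
    have := trace_mul_nonneg hPKP hF
    rw [Matrix.mul_sub, Matrix.trace_sub] at this
    linarith
  have e3 : (P * K * P * X).trace = (P * (1 - P) * K).trace := by
    have : P * K * P * X = (P * K) * (P * X) := by simp only [Matrix.mul_assoc]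
    rw [this, Matrix.trace_mul_comm]
    have h5 : P * X = 1 - P := by rw [hP]; exact res_mul_X hX
    have h6 : (1 - P) * P = P * (1 - P) := by
      rw [Matrix.sub_mul, Matrix.mul_sub, Matrix.one_mul, Matrix.mul_one]
    rw [h5, ← Matrix.mul_assoc, h6]
  have h4 : (P * (1 - P) * K).trace ≤ ((1 - P) * K).trace := by
    have hsq : ((1 - P) * (1 - P)).PosSemidef := by
      have := ps_self (1 - P)
      rwa [Matrix.transpose_sub, Matrix.transpose_one, hPs] at this
    have := trace_mul_nonneg hsq hk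
    have e5 : (1 - P) * (1 - P) = (1 - P) - P * (1 - P) := by
      rw [Matrix.sub_mul 1 P (1 - P), Matrix.one_mul]
    rw [e5, Matrix.sub_mul, Matrix.trace_sub] at this
    linarith
  have h7 : ((1 - P) * K).trace = gain J X := by rw [gain_cycle]
  rw [e1]
  linarith

/-! ### the two resolvents `P = (1+X)⁻¹` and `Q = (1+4X)⁻¹` -/

omit [Fintype n] [DecidableEq n] in
theorem ps4 {X : Matrix n n ℝ} (hX : X.PosSemidef) : ((4 : ℝ) • X).PosSemidef :=
  hX.smul (by norm_num)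

theorem Q_comm {X : Matrix n n ℝ} (hX : X.PosSemidef) :
    res ((4 : ℝ) • X) * X = X * res ((4 : ℝ) • X) := by
  have h1 := res_mul_X (ps4 hX)
  have h2 := X_mul_res (ps4 hX)
  rw [Matrix.mul_smul] at h1
  rw [Matrix.smul_mul] at h2
  have h : (4 : ℝ) • (res ((4 : ℝ) • X) * X) = (4 : ℝ) • (X * res ((4 : ℝ) • X)) := by
    rw [h1, h2]
  exact smul_right_injective _ (by norm_num : (4 : ℝ) ≠ 0) h

theorem P_comm {X : Matrix n n ℝ} (hX : X.PosSemidef) : res X * X = X * res X := by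
  rw [res_mul_X hX, X_mul_res hX]

theorem PQ_comm {X : Matrix n n ℝ} (hX : X.PosSemidef) :
    res X * res ((4 : ℝ) • X) = res ((4 : ℝ) • X) * res X := by
  have h : (1 + X) * res ((4 : ℝ) • X) = res ((4 : ℝ) • X) * (1 + X) := by
    rw [Matrix.add_mul, Matrix.mul_add, Q_comm hX, Matrix.one_mul, Matrix.mul_one]
  have e1 : res X * ((1 + X) * res ((4 : ℝ) • X)) * res X
      = res ((4 : ℝ) • X) * res X := by
    rw [← Matrix.mul_assoc, res_mul hX, Matrix.one_mul]
  have e2 : res X * (res ((4 : ℝ) • X) * (1 + X)) * res X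
      = res X * res ((4 : ℝ) • X) := by
    rw [Matrix.mul_assoc, Matrix.mul_assoc, mul_res hX, Matrix.mul_one]
  rw [← e1, ← e2, h]

/-- `P - Q = 3 P X Q` -/
theorem P_sub_Q {X : Matrix n n ℝ} (hX : X.PosSemidef) :
    res X - res ((4 : ℝ) • X) = (3 : ℝ) • (res X * X * res ((4 : ℝ) • X)) := by
  have h1 := res_mul hX
  have h2 := mul_res (ps4 hX)
  have e : (3 : ℝ) • (res X * X) = res X * (1 + (4 : ℝ) • X) - res X * (1 + X) := by
    rw [← Matrix.mul_sub, ← Matrix.mul_smul]; congr 1; module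
  rw [← Matrix.smul_mul, e, h1, Matrix.sub_mul, Matrix.mul_assoc, h2, Matrix.mul_one,
    Matrix.one_mul]

/-- `P - Q = P * (3 R' (1-P))`, `R' = (1+3Q)/4` -/
theorem P_sub_Q_left {X : Matrix n n ℝ} (hX : X.PosSemidef) :
    res X - res ((4 : ℝ) • X)
      = res X * ((3 : ℝ) • (((1 / 4 : ℝ) • (1 + (3 : ℝ) • res ((4 : ℝ) • X))) * (1 - res X))) := by
  rw [P_sub_Q hX, Matrix.mul_smul, Matrix.mul_assoc]
  congr 2
  -- X Q = R' (1-P) with R' = (1+X) Q
  have hR : (1 / 4 : ℝ) • (1 + (3 : ℝ) • res ((4 : ℝ) • X)) = res ((4 : ℝ) • X) * (1 + X) := by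
    have h1 := res_mul_X (ps4 hX)
    rw [Matrix.mul_smul] at h1
    have h2 : res ((4 : ℝ) • X) * X = (1 / 4 : ℝ) • (1 - res ((4 : ℝ) • X)) := by
      rw [← h1, smul_smul]; norm_num
    rw [Matrix.mul_add, Matrix.mul_one, h2]
    module
  rw [hR, ← X_mul_res hX, Matrix.mul_assoc, ← Matrix.mul_assoc (1 + X) X (res X)]
  have h3 : (1 + X) * X = X * (1 + X) := by
    rw [Matrix.add_mul, Matrix.mul_add, Matrix.one_mul, Matrix.mul_one]
  rw [h3, Matrix.mul_assoc, mul_res hX, Matrix.mul_one, Q_comm hX]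

/-- `P - Q = (1-Q) * ((3/4) P)` -/
theorem P_sub_Q_right {X : Matrix n n ℝ} (hX : X.PosSemidef) :
    res X - res ((4 : ℝ) • X) = (1 - res ((4 : ℝ) • X)) * ((3 / 4 : ℝ) • res X) := by
  rw [P_sub_Q hX, ← X_mul_res (ps4 hX), P_comm hX, Matrix.mul_assoc, PQ_comm hX,
    Matrix.smul_mul, Matrix.smul_mul, Matrix.mul_smul, smul_smul, Matrix.mul_assoc]
  norm_num

theorem bound2 {J X F : Matrix n n ℝ} (hJ : Jᵀ = J) (hX : X.PosSemidef)
    (hF : (X - Fᵀ * F).PosSemidef) :
    hs (F * res ((4 : ℝ) • X) * J * (1 - res ((4 : ℝ) • X))) ≤ gain J ((4 : ℝ) • X) / 4 := by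
  have hF' : ((4 : ℝ) • X - ((2 : ℝ) • Fᵀ) * ((2 : ℝ) • Fᵀ)ᵀ).PosSemidef := by
    have e : (4 : ℝ) • X - ((2 : ℝ) • Fᵀ) * ((2 : ℝ) • Fᵀ)ᵀ = (4 : ℝ) • (X - Fᵀ * F) := by
      rw [Matrix.transpose_smul, Matrix.transpose_transpose, Matrix.smul_mul, Matrix.mul_smul,
        smul_smul, smul_sub]
      norm_num
    rw [e]; exact hF.smul (by norm_num)
  have h := bound1 (F := (2 : ℝ) • Fᵀ) hJ (ps4 hX) hF'
  rw [Matrix.mul_smul, hs_smul] at h
  have e : hs (F * res ((4 : ℝ) • X) * J * (1 - res ((4 : ℝ) • X)))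
      = hs ((1 - res ((4 : ℝ) • X)) * J * res ((4 : ℝ) • X) * Fᵀ) := by
    rw [← hs_transpose]
    congr 1
    rw [Matrix.transpose_mul, Matrix.transpose_mul, Matrix.transpose_mul, Matrix.transpose_sub,
      Matrix.transpose_one, res_symm (ps4 hX), hJ]
    simp only [Matrix.mul_assoc]
  rw [e]
  linarith

theorem bound3' {J X F G : Matrix n n ℝ} (hJ : Jᵀ = J) (hX : X.PosSemidef)
    (hF : (X - Fᵀ * F).PosSemidef) (hG : (X - G * Gᵀ).PosSemidef) :
    hs (F * (res ((4 : ℝ) • X) * J * res ((4 : ℝ) • X)) * G) ≤ gain J ((4 : ℝ) • X) := by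
  have hF' : ((4 : ℝ) • X - ((2 : ℝ) • F)ᵀ * ((2 : ℝ) • F)).PosSemidef := by
    have e : (4 : ℝ) • X - ((2 : ℝ) • F)ᵀ * ((2 : ℝ) • F) = (4 : ℝ) • (X - Fᵀ * F) := by
      rw [Matrix.transpose_smul, Matrix.smul_mul, Matrix.mul_smul, smul_smul, smul_sub]
      norm_num
    rw [e]; exact hF.smul (by norm_num)
  have hG' : ((4 : ℝ) • X - ((2 : ℝ) • G) * ((2 : ℝ) • G)ᵀ).PosSemidef := by
    have e : (4 : ℝ) • X - ((2 : ℝ) • G) * ((2 : ℝ) • G)ᵀ = (4 : ℝ) • (X - G * Gᵀ) := by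
      rw [Matrix.transpose_smul, Matrix.smul_mul, Matrix.mul_smul, smul_smul, smul_sub]
      norm_num
    rw [e]; exact hG.smul (by norm_num)
  have h := bound3 hJ (ps4 hX) hF' hG'
  rw [Matrix.smul_mul, Matrix.smul_mul, Matrix.mul_smul, smul_smul, hs_smul] at h
  have h0 := hs_nonneg (F * (res ((4 : ℝ) • X) * J * res ((4 : ℝ) • X)) * G)
  linarith

/-- left term of the telescoping -/
theorem termL {J X Fa Kb V : Matrix n n ℝ} (hJ : Jᵀ = J) (hX : X.PosSemidef)
    (hF : (X - Fa * Faᵀ).PosSemidef) (hK : LC Kb) :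
    |((res X - res ((4 : ℝ) • X)) * J * res X * Fa * Kb * V).trace|
      ≤ (9 * gain J X + hs V) / 2 := by
  have hc := lc_comb (ps4 hX)
  have hb := bound1 hJ hX hF
  have hP := lc_res hX
  have hPs := res_symm hX
  rw [P_sub_Q_left hX]
  set R' := (1 / 4 : ℝ) • (1 + (3 : ℝ) • res ((4 : ℝ) • X))
  set P := res X
  have e : (P * ((3 : ℝ) • (R' * (1 - P))) * J * P * Fa * Kb * V).trace
      = (((3 : ℝ) • (R' * ((1 - P) * J * P * Fa))) * (Kb * (V * P))).trace := by
    have : P * ((3 : ℝ) • (R' * (1 - P))) * J * P * Fa * Kb * V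
        = P * ((((3 : ℝ) • (R' * ((1 - P) * J * P * Fa)))) * (Kb * V)) := by
      simp only [Matrix.mul_smul, Matrix.smul_mul, Matrix.mul_assoc]
    rw [this, Matrix.trace_mul_comm]
    congr 1
    simp only [Matrix.mul_assoc]
  rw [e]
  refine (abs_trace_mul_le _ _).trans ?_
  have h1 : hs ((3 : ℝ) • (R' * ((1 - P) * J * P * Fa))) ≤ 9 * gain J X := by
    rw [hs_smul]
    have := (hc ((1 - P) * J * P * Fa)).trans hb
    linarith
  have h2 : hs (Kb * (V * P)) ≤ hs V := by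
    refine (hK _).trans (hs_mul_le ?_ _)
    rw [hPs]; exact hP
  linarith

/-- right term of the telescoping -/
theorem termR {J X Fc Kc V : Matrix n n ℝ} (hJ : Jᵀ = J) (hX : X.PosSemidef)
    (hF : (X - Fcᵀ * Fc).PosSemidef) (hK : LC Kcᵀ) :
    |(res ((4 : ℝ) • X) * J * (res X - res ((4 : ℝ) • X)) * V * Kc * Fc).trace|
      ≤ (gain J ((4 : ℝ) • X) + hs V) / 2 := by
  have hb := bound2 hJ hX hF
  have hP := lc_res hX
  rw [P_sub_Q_right hX]
  set Q := res ((4 : ℝ) • X)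
  set P := res X
  have e : (Q * J * ((1 - Q) * ((3 / 4 : ℝ) • P)) * V * Kc * Fc).trace
      = ((Fc * Q * J * (1 - Q)) * ((3 / 4 : ℝ) • (P * (V * Kc)))).trace := by
    have : Q * J * ((1 - Q) * ((3 / 4 : ℝ) • P)) * V * Kc * Fc
        = (Q * J * (1 - Q) * ((3 / 4 : ℝ) • (P * (V * Kc)))) * Fc := by
      simp only [Matrix.mul_smul, Matrix.smul_mul, Matrix.mul_assoc]
    rw [this, Matrix.trace_mul_comm]
    congr 1
    simp only [Matrix.mul_assoc]
  rw [e]
  refine (abs_trace_mul_le _ _).trans ?_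
  have h1 : hs ((3 / 4 : ℝ) • (P * (V * Kc))) ≤ hs V := by
    rw [hs_smul]
    have := (hP (V * Kc)).trans (hs_mul_le hK V)
    have h0 := hs_nonneg (P * (V * Kc))
    linarith
  have h0 := hs_nonneg (Fc * Q * J * (1 - Q))
  linarith

/-- the trilinear expression with general middle factors -/
def Tri (K0 K1 K2 F0 F1 F2 : Matrix n n ℝ) : ℝ := (K0 * F0 * K1 * F1 * K2 * F2).trace

omit [DecidableEq n] in
theorem Tri_rot (K0 K1 K2 F0 F1 F2 : Matrix n n ℝ) :
    Tri K0 K1 K2 F0 F1 F2 = Tri K1 K2 K0 F1 F2 F0 := by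
  unfold Tri
  have : K0 * F0 * K1 * F1 * K2 * F2 = (K0 * F0) * (K1 * F1 * K2 * F2) := by
    simp only [Matrix.mul_assoc]
  rw [this, Matrix.trace_mul_comm]
  congr 1
  simp only [Matrix.mul_assoc]

omit [DecidableEq n] in
theorem Tri_sub_left (K0 K0' K1 K2 F0 F1 F2 : Matrix n n ℝ) :
    Tri K0 K1 K2 F0 F1 F2 - Tri K0' K1 K2 F0 F1 F2 = Tri (K0 - K0') K1 K2 F0 F1 F2 := by
  unfold Tri
  simp only [Matrix.sub_mul, Matrix.trace_sub]

theorem lc_sandwich {J X : Matrix n n ℝ} (hJ : Jᵀ = J) (hJJ : J * J = 1) (hX : X.PosSemidef) :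
    LC (res X * J * res X) := ((lc_res hX).mul (lc_J hJ hJJ)).mul (lc_res hX)

theorem sandwich_symm {J X : Matrix n n ℝ} (hJ : Jᵀ = J) (hX : X.PosSemidef) :
    (res X * J * res X)ᵀ = res X * J * res X := by
  rw [Matrix.transpose_mul, Matrix.transpose_mul, res_symm hX, hJ, Matrix.mul_assoc]

/-- one vertex step of the telescoping -/
theorem step_tri {J Xa Fa Fb Fc Kb Kc : Matrix n n ℝ} {gb gc : ℝ}
    (hJ : Jᵀ = J) (hXa : Xa.PosSemidef)
    (ha : (Xa - Fa * Faᵀ).PosSemidef) (hc : (Xa - Fcᵀ * Fc).PosSemidef)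
    (hKb : LC Kb) (hKc : LC Kcᵀ) (hb1 : hs (Fb * Kc * Fc) ≤ gc) (hb2 : hs (Fa * Kb * Fb) ≤ gb) :
    |Tri (res Xa * J * res Xa) Kb Kc Fa Fb Fc
        - Tri (res ((4 : ℝ) • Xa) * J * res ((4 : ℝ) • Xa)) Kb Kc Fa Fb Fc|
      ≤ (9 * gain J Xa + gc) / 2 + (gain J ((4 : ℝ) • Xa) + gb) / 2 := by
  rw [Tri_sub_left]
  have hL := termL (V := Fb * Kc * Fc) hJ hXa ha hKb
  have hR := termR (V := Fa * Kb * Fb) hJ hXa hc hKc
  set P := res Xa
  set Q := res ((4 : ℝ) • Xa)
  have e : Tri (P * J * P - Q * J * Q) Kb Kc Fa Fb Fc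
      = ((P - Q) * J * P * Fa * Kb * (Fb * Kc * Fc)).trace
        + (Q * J * (P - Q) * (Fa * Kb * Fb) * Kc * Fc).trace := by
    unfold Tri
    rw [← Matrix.trace_add]
    congr 1
    simp only [Matrix.sub_mul, Matrix.mul_sub, Matrix.mul_assoc]
    abel
  rw [e]
  refine (abs_add_le _ _).trans ?_
  linarith

end tri

end P075
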